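import Mathlib

/-!
Posterior resampling for finitely supported measures.
-/

namespace Vale.Agent.P064

open Finset

lemma resample {S A Z : Type} [Fintype S] [Fintype A] [Fintype Z]
    (ν : S → A → ℝ) (hν : ∀ σ τ, 0 ≤ ν σ τ)
    (K : S → A → Z → ℝ) (hK0 : ∀ σ τ z, 0 ≤ K σ τ z) (hK1 : ∀ σ τ, ∑ z, K σ τ z = 1)
    (Pt : Z → ℝ) (hPt : ∀ z, 0 < Pt z) (hPt1 : ∑ z, Pt z = 1)
    (Lam : S → Z → ℝ) (hQ : ∀ σ z, ∑ τ, ν σ τ * K σ τ z ≤ Pt z * Lam σ z)
    (good : S → S → Prop) [∀ a b, Decidable (good a b)] (δ : ℝ) (hδ : 0 < δ) :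
    ∃ ν' : S → A → ℝ, (∀ σ τ, 0 ≤ ν' σ τ) ∧ (∀ τ, ∑ σ', ν' σ' τ ≤ ∑ σ, ν σ τ) ∧
      (∀ σ' τ, ν' σ' τ ≤
        δ⁻¹ * ∑ σ, if good σ σ' then ν σ τ * ∑ z, K σ τ z * Lam σ' z else 0) ∧
      (∀ σ' τ, ν' σ' τ ≠ 0 → ∃ σ z τ'', ν σ τ ≠ 0 ∧ good σ σ' ∧ K σ τ z ≠ 0 ∧
        ν σ' τ'' ≠ 0 ∧ K σ' τ'' z ≠ 0) ∧
      (∑ σ, ∑ τ, ν σ τ - δ - δ⁻¹ * ∑ σ, ∑ σ',
        (if good σ σ' then 0 else ∑ z, Pt z * (Lam σ z * Lam σ' z)) ≤ ∑ σ, ∑ τ, ν' σ τ) := by
  classical
  set Q : S → Z → ℝ := fun σ z => ∑ τ, ν σ τ * K σ τ z with hQdef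
  set Qt : Z → ℝ := fun z => ∑ σ, Q σ z with hQt
  have hQ0 : ∀ σ z, 0 ≤ Q σ z := fun σ z =>
    Finset.sum_nonneg (fun τ _ => mul_nonneg (hν σ τ) (hK0 σ τ z))
  have hQt0 : ∀ z, 0 ≤ Qt z := fun z => Finset.sum_nonneg (fun σ _ => hQ0 σ z)
  have hL0 : ∀ σ z, 0 ≤ Lam σ z := fun σ z =>
    (mul_nonneg_iff_of_pos_left (hPt z)).1 ((hQ0 σ z).trans (hQ σ z))
  have hrat : ∀ σ' z, δ * Pt z ≤ Qt z → Q σ' z / Qt z ≤ δ⁻¹ * Lam σ' z := by
    intro σ' z h
    have h1 : 0 < δ * Pt z := mul_pos hδ (hPt z)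
    rw [div_le_iff₀ (lt_of_lt_of_le h1 h)]
    calc Q σ' z ≤ Pt z * Lam σ' z := hQ σ' z
      _ = δ⁻¹ * Lam σ' z * (δ * Pt z) := by field_simp
      _ ≤ _ := mul_le_mul_of_nonneg_left h (mul_nonneg (inv_nonneg.2 hδ.le) (hL0 σ' z))
  refine ⟨fun σ' τ => ∑ σ, ∑ z,
    if good σ σ' ∧ δ * Pt z ≤ Qt z then ν σ τ * K σ τ z * (Q σ' z / Qt z) else 0, ?_, ?_, ?_, ?_, ?_⟩
  · intro σ' τ
    refine Finset.sum_nonneg (fun σ _ => Finset.sum_nonneg (fun z _ => ?_))
    split_ifs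
    · exact mul_nonneg (mul_nonneg (hν σ τ) (hK0 σ τ z)) (div_nonneg (hQ0 σ' z) (hQt0 z))
    · exact le_rfl
  · intro τ
    rw [Finset.sum_comm]
    refine Finset.sum_le_sum (fun σ _ => ?_)
    rw [Finset.sum_comm]
    calc _ ≤ ∑ z, ν σ τ * K σ τ z := by
          refine Finset.sum_le_sum (fun z _ => ?_)
          have h0 : 0 ≤ ν σ τ * K σ τ z := mul_nonneg (hν σ τ) (hK0 σ τ z)
          calc _ ≤ ∑ σ', ν σ τ * K σ τ z * (Q σ' z / Qt z) := by
                refine Finset.sum_le_sum (fun σ' _ => ?_)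
                split_ifs
                · exact le_rfl
                · exact mul_nonneg h0 (div_nonneg (hQ0 σ' z) (hQt0 z))
            _ = ν σ τ * K σ τ z * (Qt z / Qt z) := by
                rw [← Finset.mul_sum, ← Finset.sum_div]
            _ ≤ _ := mul_le_of_le_one_right h0 (div_self_le_one _)
      _ = ν σ τ := by rw [← Finset.mul_sum, hK1, mul_one]
  · intro σ' τ
    rw [Finset.mul_sum]
    refine Finset.sum_le_sum (fun σ _ => ?_)
    by_cases hg : good σ σ'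
    · simp only [hg, true_and, if_true]
      rw [Finset.mul_sum, Finset.mul_sum]
      refine Finset.sum_le_sum (fun z _ => ?_)
      have h0 : 0 ≤ ν σ τ * K σ τ z := mul_nonneg (hν σ τ) (hK0 σ τ z)
      have h1 : δ⁻¹ * (ν σ τ * (K σ τ z * Lam σ' z)) = ν σ τ * K σ τ z * (δ⁻¹ * Lam σ' z) := by
        ring
      rw [h1]
      split_ifs with h
      · exact mul_le_mul_of_nonneg_left (hrat σ' z h) h0
      · exact mul_nonneg h0 (mul_nonneg (inv_nonneg.2 hδ.le) (hL0 σ' z))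
    · simp [hg]
  · intro σ' τ h
    obtain ⟨σ, _, h⟩ := Finset.exists_ne_zero_of_sum_ne_zero h
    obtain ⟨z, _, h⟩ := Finset.exists_ne_zero_of_sum_ne_zero h
    split_ifs at h with hc
    · have h1 := left_ne_zero_of_mul h
      have h2 := right_ne_zero_of_mul h
      have h3 : Q σ' z ≠ 0 := fun h4 => h2 (by rw [h4, zero_div])
      obtain ⟨τ'', _, h4⟩ := Finset.exists_ne_zero_of_sum_ne_zero h3
      exact ⟨σ, z, τ'', left_ne_zero_of_mul h1, hc.1, right_ne_zero_of_mul h1,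
        left_ne_zero_of_mul h4, right_ne_zero_of_mul h4⟩
    · exact absurd rfl h
  · have h1 : ∑ σ', ∑ τ, ∑ σ, ∑ z,
        (if good σ σ' ∧ δ * Pt z ≤ Qt z then ν σ τ * K σ τ z * (Q σ' z / Qt z) else 0) =
        ∑ z, ∑ σ, ∑ σ',
        (if good σ σ' ∧ δ * Pt z ≤ Qt z then Q σ z * (Q σ' z / Qt z) else 0) := by
      calc _ = ∑ σ', ∑ σ, ∑ z, ∑ τ,
            (if good σ σ' ∧ δ * Pt z ≤ Qt z then ν σ τ * K σ τ z * (Q σ' z / Qt z) else 0) := by
            refine Finset.sum_congr rfl (fun σ' _ => ?_)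
            rw [Finset.sum_comm]
            refine Finset.sum_congr rfl (fun σ _ => ?_)
            rw [Finset.sum_comm]
        _ = ∑ σ', ∑ σ, ∑ z,
            (if good σ σ' ∧ δ * Pt z ≤ Qt z then Q σ z * (Q σ' z / Qt z) else 0) := by
            refine Finset.sum_congr rfl (fun σ' _ => Finset.sum_congr rfl (fun σ _ =>
              Finset.sum_congr rfl (fun z _ => ?_)))
            split_ifs
            · rw [← Finset.sum_mul]
            · simp
        _ = ∑ σ, ∑ σ', ∑ z,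
            (if good σ σ' ∧ δ * Pt z ≤ Qt z then Q σ z * (Q σ' z / Qt z) else 0) :=
            Finset.sum_comm
        _ = ∑ σ, ∑ z, ∑ σ',
            (if good σ σ' ∧ δ * Pt z ≤ Qt z then Q σ z * (Q σ' z / Qt z) else 0) :=
            Finset.sum_congr rfl (fun σ _ => Finset.sum_comm)
        _ = _ := Finset.sum_comm
    have h2 : ∑ σ, ∑ τ, ν σ τ = ∑ z, Qt z := by
      simp only [hQt, hQdef]
      rw [Finset.sum_comm (s := univ) (t := univ) (f := fun z σ => ∑ τ, ν σ τ * K σ τ z)]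
      refine Finset.sum_congr rfl (fun σ _ => ?_)
      rw [Finset.sum_comm]
      refine Finset.sum_congr rfl (fun τ _ => ?_)
      rw [← Finset.mul_sum, hK1, mul_one]
    have h3 : ∑ σ, ∑ σ', (if good σ σ' then 0 else ∑ z, Pt z * (Lam σ z * Lam σ' z)) =
        ∑ z, ∑ σ, ∑ σ', (if good σ σ' then 0 else Pt z * (Lam σ z * Lam σ' z)) := by
      calc _ = ∑ σ, ∑ σ', ∑ z, (if good σ σ' then 0 else Pt z * (Lam σ z * Lam σ' z)) := by
            refine Finset.sum_congr rfl (fun σ _ => Finset.sum_congr rfl (fun σ' _ => ?_))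
            split_ifs
            · simp
            · rfl
        _ = ∑ σ, ∑ z, ∑ σ', (if good σ σ' then 0 else Pt z * (Lam σ z * Lam σ' z)) :=
            Finset.sum_congr rfl (fun σ _ => Finset.sum_comm)
        _ = _ := Finset.sum_comm
    have h4 : δ = ∑ z, δ * Pt z := by rw [← Finset.mul_sum, hPt1, mul_one]
    rw [h1, h2, h3, Finset.mul_sum]
    conv_lhs => rw [h4]
    rw [← Finset.sum_sub_distrib, ← h4, ← Finset.sum_sub_distrib]
    refine Finset.sum_le_sum (fun z _ => ?_)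
    have h5 : 0 ≤ δ⁻¹ * ∑ σ, ∑ σ', (if good σ σ' then 0 else Pt z * (Lam σ z * Lam σ' z)) := by
      refine mul_nonneg (inv_nonneg.2 hδ.le)
        (Finset.sum_nonneg (fun σ _ => Finset.sum_nonneg (fun σ' _ => ?_)))
      split_ifs
      · exact le_rfl
      · exact mul_nonneg (hPt z).le (mul_nonneg (hL0 σ z) (hL0 σ' z))
    have h6 : 0 < δ * Pt z := mul_pos hδ (hPt z)
    by_cases hz : δ * Pt z ≤ Qt z
    · simp only [hz, and_true]
      have h7 : Qt z = ∑ σ, ∑ σ', Q σ z * (Q σ' z / Qt z) := by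
        simp only [← Finset.mul_sum, ← Finset.sum_div]
        rw [← Finset.sum_mul]
        change Qt z = Qt z * (Qt z / Qt z)
        rw [div_self (lt_of_lt_of_le h6 hz).ne', mul_one]
      have h8 : ∑ σ, ∑ σ', Q σ z * (Q σ' z / Qt z) -
          δ⁻¹ * ∑ σ, ∑ σ', (if good σ σ' then 0 else Pt z * (Lam σ z * Lam σ' z)) ≤
          ∑ σ, ∑ σ', (if good σ σ' then Q σ z * (Q σ' z / Qt z) else 0) := by
        rw [Finset.mul_sum, ← Finset.sum_sub_distrib]
        refine Finset.sum_le_sum (fun σ _ => ?_)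
        rw [Finset.mul_sum, ← Finset.sum_sub_distrib]
        refine Finset.sum_le_sum (fun σ' _ => ?_)
        split_ifs
        · simp
        · have h9 : Q σ z * (Q σ' z / Qt z) ≤ (Pt z * Lam σ z) * (δ⁻¹ * Lam σ' z) :=
            mul_le_mul (hQ σ z) (hrat σ' z hz) (div_nonneg (hQ0 σ' z) (hQt0 z))
              (mul_nonneg (hPt z).le (hL0 σ z))
          nlinarith
      linarith
    · simp only [hz, and_false, if_false, Finset.sum_const_zero]
      linarith [not_le.1 hz]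

end Vale.Agent.P064
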