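import Mathlib
import Vale.Agent.P064.Resample

/-!
One planting and resampling step for random copies of a template.
-/

namespace Vale.Agent.P064

open Finset

set_option linter.unusedSectionVars false

variable {T X S O : Type} [Fintype T] [DecidableEq T] [Fintype X] [DecidableEq X]
  [Fintype S] [DecidableEq S] [Fintype O] [DecidableEq O]

/-- extension along a map with a default value -/
noncomputable def ext (f : T → X) (g : T → ℝ) (d : ℝ) (x : X) : ℝ :=
  Function.extend f g (fun _ => d) x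

lemma ext_in {f : T → X} (hf : Function.Injective f) (g : T → ℝ) (d : ℝ) (y : T) :
    ext f g d (f y) = g y := hf.extend_apply _ _ _

lemma ext_out {f : T → X} (g : T → ℝ) (d : ℝ) {x : X} (hx : ¬ ∃ y, f y = x) :
    ext f g d x = d := Function.extend_apply' _ _ _ hx

lemma prod_in {f : T → X} (hf : Function.Injective f) (G : X → ℝ)
    (h : ∀ x, (¬ ∃ y, f y = x) → G x = 1) : ∏ x, G x = ∏ y, G (f y) :=
  (Fintype.prod_of_injective f hf _ G (fun x hx => h x hx) (fun _ => rfl)).symm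

noncomputable def kout (l : O) (z : O × Bool) : ℝ := if z.1 = l then 1 / 2 else 0

noncomputable def kin (A F : Finset T) (lev : T → O) (y : T) (l : O) (z : O × Bool) : ℝ :=
  if y ∈ A then (if z = (lev y, true) then 1 else 0)
  else if y ∈ F then (if z = (l, false) then 1 else 0) else kout l z

noncomputable def kx (A F : Finset T) (lev : T → O) (f : T → X) (x : X) (l : O)
    (z : O × Bool) : ℝ :=
  ext f (fun y => kin A F lev y l z) (kout l z) x

/-- total mass of the reference weight -/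
noncomputable def sm (P : O → ℝ) (β : T → O → ℝ) (y : T) : ℝ := ∑ l, P l * β y l

noncomputable def lin (A F : Finset T) (lev : T → O) (P : O → ℝ) (β : T → O → ℝ) (y : T)
    (z : O × Bool) : ℝ :=
  if y ∈ A then (if z = (lev y, true) then sm P β y * (2 / P (lev y)) else 0)
  else if y ∈ F then (if z.2 = false then 2 * β y z.1 else 0) else 1

noncomputable def lx (A F : Finset T) (lev : T → O) (P : O → ℝ) (β : T → O → ℝ) (f : T → X)
    (x : X) (z : O × Bool) : ℝ :=
  ext f (fun y => lin A F lev P β y z) 1 x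

variable {A F : Finset T} {lev : T → O} {P : O → ℝ} {β : T → O → ℝ}

lemma kout_nonneg (l : O) (z : O × Bool) : 0 ≤ kout l z := by
  unfold kout; split_ifs <;> norm_num

lemma kin_nonneg (y : T) (l : O) (z : O × Bool) : 0 ≤ kin A F lev y l z := by
  unfold kin; split_ifs <;> first | exact kout_nonneg l z | norm_num

lemma kx_nonneg {f : T → X} (hf : Function.Injective f) (x : X) (l : O) (z : O × Bool) :
    0 ≤ kx A F lev f x l z := by
  unfold kx
  by_cases hx : ∃ y, f y = x
  · obtain ⟨y, rfl⟩ := hx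
    rw [ext_in hf]; exact kin_nonneg y l z
  · rw [ext_out _ _ hx]; exact kout_nonneg l z

lemma sum_kout (l : O) : ∑ z : O × Bool, kout l z = 1 := by
  simp [kout, Fintype.sum_prod_type, Finset.sum_add_distrib]
  norm_num

lemma sum_kx {f : T → X} (hf : Function.Injective f) (x : X) (l : O) :
    ∑ z, kx A F lev f x l z = 1 := by
  unfold kx
  by_cases hx : ∃ y, f y = x
  · obtain ⟨y, rfl⟩ := hx
    simp only [ext_in hf, kin]
    split_ifs
    · simp
    · simp
    · exact sum_kout l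
  · simp only [ext_out _ _ hx]
    exact sum_kout l

lemma sum_P_kout (z : O × Bool) : ∑ l, P l * kout l z = P z.1 / 2 := by
  simp only [kout, mul_ite, mul_zero]
  rw [Finset.sum_ite_eq]
  simp; ring

lemma sum_P_kin (hP : ∀ l, 0 < P l) (hβ : ∀ y, y ∉ A → y ∉ F → ∀ l, β y l = 1) (y : T)
    (z : O × Bool) :
    ∑ l, P l * β y l * kin A F lev y l z = P z.1 / 2 * lin A F lev P β y z := by
  unfold kin lin
  by_cases hA : y ∈ A
  · simp only [hA, if_true]
    split_ifs with h
    · simp only [mul_one]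
      rw [h]
      have := (hP (lev y)).ne'
      unfold sm
      field_simp
    · simp
  · by_cases hF : y ∈ F
    · simp only [hA, hF, if_true, if_false]
      obtain ⟨l', c⟩ := z
      cases c
      · simp only [Prod.mk.injEq, and_true, mul_ite, mul_one, mul_zero, if_true]
        rw [Finset.sum_ite_eq]
        simp; ring
      · simp
    · simp only [hA, hF, if_false, hβ y hA hF, mul_one]
      exact sum_P_kout z

lemma sm_nonneg (hP : ∀ l, 0 < P l) (hβ0 : ∀ y l, 0 ≤ β y l) (y : T) : 0 ≤ sm P β y :=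
  Finset.sum_nonneg (fun l _ => mul_nonneg (hP l).le (hβ0 y l))

lemma sum_P_lin (hP : ∀ l, 0 < P l) (hP1 : ∑ l, P l = 1)
    (hβ : ∀ y, y ∉ A → y ∉ F → ∀ l, β y l = 1) (y : T) :
    ∑ z : O × Bool, P z.1 / 2 * lin A F lev P β y z = sm P β y := by
  simp only [← sum_P_kin hP hβ]
  rw [Finset.sum_comm]
  refine Finset.sum_congr rfl (fun l _ => ?_)
  rw [← Finset.mul_sum]
  have := sum_kx (A := A) (F := F) (lev := lev) (f := id) Function.injective_id y l
  simp only [kx] at this
  have h2 : ∀ z, ext id (fun y => kin A F lev y l z) (kout l z) y = kin A F lev y l z :=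
    fun z => ext_in (f := id) Function.injective_id _ _ y
  simp only [h2] at this
  rw [this, mul_one]

lemma sum_P_half (hP1 : ∑ l, P l = 1) : ∑ z : O × Bool, P z.1 / 2 = 1 := by
  simp only [Fintype.sum_prod_type, Finset.sum_const, Finset.card_univ, Fintype.card_bool,
    nsmul_eq_mul]
  rw [← hP1]
  refine Finset.sum_congr rfl (fun l _ => ?_)
  push_cast; ring

lemma sm_out (hP1 : ∑ l, P l = 1) (hβ : ∀ y, y ∉ A → y ∉ F → ∀ l, β y l = 1) {y : T}
    (hA : y ∉ A) (hF : y ∉ F) : sm P β y = 1 := by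
  simp only [sm, hβ y hA hF, mul_one, hP1]

/-- the local second moment -/
lemma second_local (hP : ∀ l, 0 < P l) (hβ0 : ∀ y l, 0 ≤ β y l) {c : ℝ} {ω : T → ℝ}
    (hc : 0 ≤ c) (hω : ∀ y, 0 ≤ ω y)
    (hAA : ∀ y ∈ A, ∀ y' ∈ A, lev y = lev y' → 2 / P (lev y) ≤ c * ω y * ω y')
    (hFF : ∀ y ∈ F, ∀ y' ∈ F, ∀ l, 2 / P l ≤ c * ω y * ω y')
    {y y' : T} (hy : y ∈ A ∪ F) (hy' : y' ∈ A ∪ F) :
    ∑ z : O × Bool, P z.1 / 2 * (lin A F lev P β y z * lin A F lev P β y' z) ≤
      sm P β y * sm P β y' * (c * ω y * ω y') := by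
  have h0 : 0 ≤ sm P β y * sm P β y' := mul_nonneg (sm_nonneg hP hβ0 y) (sm_nonneg hP hβ0 y')
  have h1 : 0 ≤ sm P β y * sm P β y' * (c * ω y * ω y') :=
    mul_nonneg h0 (mul_nonneg (mul_nonneg hc (hω y)) (hω y'))
  unfold lin
  by_cases hA : y ∈ A
  · by_cases hA' : y' ∈ A
    · simp only [hA, hA', if_true, ite_mul, zero_mul, mul_ite, mul_zero]
      by_cases hl : lev y = lev y'
      · have h2 := hAA y hA y' hA' hl
        rw [← hl]
        have h3 : ∀ z : O × Bool, (if z = (lev y, true) then (if z = (lev y, true) then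
            P z.1 / 2 * (sm P β y * (2 / P (lev y)) * (sm P β y' * (2 / P (lev y)))) else 0)
            else 0) = if z = (lev y, true) then sm P β y * sm P β y' * (2 / P (lev y)) else 0 := by
          intro z
          split_ifs with h
          · rw [h]
            have := (hP (lev y)).ne'
            field_simp
          · rfl
        simp only [h3]
        rw [Finset.sum_ite_eq']
        simp only [mem_univ, if_true]
        exact mul_le_mul_of_nonneg_left h2 h0
      · refine le_trans (le_of_eq (Finset.sum_eq_zero (fun z _ => ?_))) h1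
        split_ifs with h2 h3
        · exact absurd (Prod.ext_iff.1 (h3.symm.trans h2)).1 hl
        · rfl
        · rfl
    · have hF' : y' ∈ F := by simpa [hA'] using hy'
      refine le_trans (le_of_eq (Finset.sum_eq_zero (fun z _ => ?_))) h1
      simp only [hA, hA', hF', if_true, if_false]
      split_ifs with h2 h3
      · rw [h2] at h3; exact absurd h3 (by simp)
      · simp
      · simp
      · simp
  · have hF : y ∈ F := by simpa [hA] using hy
    by_cases hA' : y' ∈ A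
    · refine le_trans (le_of_eq (Finset.sum_eq_zero (fun z _ => ?_))) h1
      simp only [hA, hA', hF, if_true, if_false]
      split_ifs with h2 h3
      · rw [h3] at h2; exact absurd h2 (by simp)
      · simp
      · simp
      · simp
    · have hF' : y' ∈ F := by simpa [hA'] using hy'
      simp only [hA, hA', hF, hF', if_true, if_false, Fintype.sum_prod_type, Fintype.sum_bool]
      simp only [Bool.true_eq_false, if_false, if_true, mul_zero, zero_add]
      have h2 : sm P β y * sm P β y' * (c * ω y * ω y') =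
          ∑ l, P l * β y l * (sm P β y' * (c * ω y * ω y')) := by
        rw [← Finset.sum_mul, mul_assoc]; rfl
      rw [h2]
      refine Finset.sum_le_sum (fun l _ => ?_)
      have h3 : P l * β y' l ≤ sm P β y' :=
        Finset.single_le_sum (f := fun l => P l * β y' l)
          (fun l _ => mul_nonneg (hP l).le (hβ0 y' l)) (mem_univ l)
      have h4 : P l / 2 * (2 * β y l * (2 * β y' l)) =
          P l * β y l * ((P l * β y' l) * (2 / P l)) := by
        have := (hP l).ne'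
        field_simp
      rw [h4]
      refine mul_le_mul_of_nonneg_left ?_ (mul_nonneg (hP l).le (hβ0 y l))
      exact mul_le_mul h3 (hFF y hF y' hF' l) (div_nonneg (by norm_num) (hP l).le)
        (sm_nonneg hP hβ0 y')

/-- overlap of two copies -/
def ovl (D : Finset T) (f g : T → X) : Finset T := D.filter (fun y => f y ∈ D.image g)

lemma image_ovl (D : Finset T) (f g : T → X) : (ovl D f g).image f = (ovl D g f).image g := by
  ext x
  simp only [ovl, mem_image, mem_filter]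
  constructor
  · rintro ⟨y, ⟨hy, y', hy', h⟩, rfl⟩
    exact ⟨y', ⟨hy', y, hy, h.symm⟩, h⟩
  · rintro ⟨y, ⟨hy, y', hy', h⟩, rfl⟩
    exact ⟨y', ⟨hy', y, hy, h.symm⟩, h⟩

lemma second_prod (hP : ∀ l, 0 < P l) (hP1 : ∑ l, P l = 1) (hβ0 : ∀ y l, 0 ≤ β y l)
    (hβ : ∀ y, y ∉ A → y ∉ F → ∀ l, β y l = 1) {c : ℝ} {ω : T → ℝ}
    (hc : 0 ≤ c) (hω : ∀ y, 0 ≤ ω y)
    (hAA : ∀ y ∈ A, ∀ y' ∈ A, lev y = lev y' → 2 / P (lev y) ≤ c * ω y * ω y')
    (hFF : ∀ y ∈ F, ∀ y' ∈ F, ∀ l, 2 / P l ≤ c * ω y * ω y')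
    {f g : T → X} (hf : Function.Injective f) (hg : Function.Injective g) :
    ∑ z : X → O × Bool, (∏ x, P (z x).1 / 2) *
        ((∏ x, lx A F lev P β f x (z x)) * ∏ x, lx A F lev P β g x (z x)) ≤
      (∏ y, sm P β y) * (∏ y, sm P β y) *
        ((∏ y ∈ ovl (A ∪ F) f g, c * ω y) * ∏ y ∈ ovl (A ∪ F) g f, ω y) := by
  classical
  simp only [← Finset.prod_mul_distrib]
  rw [← Fintype.prod_sum (fun x z => P z.1 / 2 * (lx A F lev P β f x z * lx A F lev P β g x z))]
  set D := A ∪ F with hD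
  have hl1 : ∀ y, y ∉ D → ∀ z, lin A F lev P β y z = 1 := by
    intro y hy z
    rw [hD, mem_union, not_or] at hy
    simp only [lin, hy.1, hy.2, if_false]
  have hs1 : ∀ y, y ∉ D → sm P β y = 1 := by
    intro y hy
    rw [hD, mem_union, not_or] at hy
    exact sm_out hP1 hβ hy.1 hy.2
  have hone : ∀ (h : T → X), Function.Injective h → ∀ x, x ∉ D.image h →
      (∀ z, lx A F lev P β h x z = 1) ∧ ext h (sm P β) 1 x = 1 := by
    intro h hh x hx
    by_cases h1 : ∃ y, h y = x
    · obtain ⟨y, rfl⟩ := h1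
      have hy : y ∉ D := fun h2 => hx (mem_image_of_mem h h2)
      exact ⟨fun z => by rw [lx, ext_in hh, hl1 y hy], by rw [ext_in hh, hs1 y hy]⟩
    · exact ⟨fun z => by rw [lx, ext_out _ _ h1], ext_out _ _ h1⟩
  have hsum : ∀ (h : T → X), Function.Injective h → ∀ x,
      ∑ z : O × Bool, P z.1 / 2 * lx A F lev P β h x z = ext h (sm P β) 1 x := by
    intro h hh x
    by_cases h1 : ∃ y, h y = x
    · obtain ⟨y, rfl⟩ := h1
      simp only [lx, ext_in hh]
      exact sum_P_lin hP hP1 hβ y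
    · simp only [lx, ext_out _ _ h1, mul_one]
      exact sum_P_half hP1
  have hloc : ∀ x, ∑ z : O × Bool, P z.1 / 2 * (lx A F lev P β f x z * lx A F lev P β g x z) ≤
      ext f (sm P β) 1 x * ext g (sm P β) 1 x *
        ((if x ∈ D.image f ∧ x ∈ D.image g then ext f (fun y => c * ω y) 1 x else 1) *
          (if x ∈ D.image f ∧ x ∈ D.image g then ext g ω 1 x else 1)) := by
    intro x
    by_cases h1 : x ∈ D.image f
    · by_cases h2 : x ∈ D.image g
      · simp only [h1, h2, and_self, if_true]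
        obtain ⟨y, hy, rfl⟩ := mem_image.1 h1
        obtain ⟨y', hy', h3⟩ := mem_image.1 h2
        simp only [lx, ext_in hf]
        rw [← h3]
        simp only [ext_in hg]
        exact second_local hP hβ0 hc hω hAA hFF hy hy'
      · simp only [h2, and_false, if_false, mul_one, (hone g hg x h2).1, (hone g hg x h2).2]
        exact (hsum f hf x).le
    · simp only [h1, false_and, if_false, mul_one, one_mul, (hone f hf x h1).1,
        (hone f hf x h1).2]
      exact (hsum g hg x).le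
  have hlx0 : ∀ (h : T → X), Function.Injective h → ∀ x z, 0 ≤ lx A F lev P β h x z := by
    intro h hh x z
    unfold lx
    by_cases h1 : ∃ y, h y = x
    · obtain ⟨y, rfl⟩ := h1
      rw [ext_in hh]
      unfold lin
      have := sm_nonneg hP hβ0 y
      have := hP (lev y)
      have := hβ0 y z.1
      split_ifs <;> positivity
    · rw [ext_out _ _ h1]; norm_num
  refine le_trans (Finset.prod_le_prod (fun x _ => Finset.sum_nonneg (fun z _ =>
    mul_nonneg (by have := hP z.1; positivity) (mul_nonneg (hlx0 f hf x z) (hlx0 g hg x z))))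
    (fun x _ => hloc x)) (le_of_eq ?_)
  simp only [Finset.prod_mul_distrib]
  have e1 : ∀ (h : T → X), Function.Injective h → ∏ x, ext h (sm P β) 1 x = ∏ y, sm P β y := by
    intro h hh
    rw [prod_in hh _ (fun x hx => ext_out _ _ hx)]
    simp only [ext_in hh]
  have e2 : ∀ (h k : T → X) (a : T → ℝ), Function.Injective h →
      ∏ x, (if x ∈ D.image h ∧ x ∈ D.image k then ext h a 1 x else 1) = ∏ y ∈ ovl D h k, a y := by
    intro h k a hh
    rw [prod_in hh _ (fun x hx => by rw [ext_out _ _ hx]; simp), ovl, Finset.prod_filter,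
      ← Finset.prod_subset (Finset.subset_univ D)]
    · refine Finset.prod_congr rfl (fun y hy => ?_)
      simp only [mem_image_of_mem h hy, true_and, ext_in hh]
    · intro y _ hy
      have : h y ∉ D.image h := fun h1 => hy (hh.mem_finset_image.1 h1)
      simp only [this, false_and, if_false]
  rw [e1 f hf, e1 g hg, e2 f g _ hf]
  simp only [and_comm (a := _ ∈ D.image f)]
  rw [e2 g f _ hg, Finset.prod_mul_distrib]

lemma second_count {φ : S → T → X} (hφ : ∀ σ, Function.Injective (φ σ)) {q : ℝ} (hq0 : 0 ≤ q)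
    (hq : ∀ (R : Finset T) (B : Finset X),
      ((univ.filter (fun σ => R.image (φ σ) = B)).card : ℝ) ≤ Fintype.card S * q ^ B.card)
    (D : Finset T) {a b : T → ℝ} (ha : ∀ y, 0 ≤ a y) (hb : ∀ y, 0 ≤ b y) :
    ∑ σ, ∑ σ', (∏ y ∈ ovl D (φ σ) (φ σ'), a y) * ∏ y ∈ ovl D (φ σ') (φ σ), b y ≤
      (Fintype.card S : ℝ) ^ 2 * ((∏ y ∈ D, (1 + q * a y)) * ∏ y ∈ D, (1 + b y)) := by
  classical
  have h1 : ∀ σ, ∑ σ', (∏ y ∈ ovl D (φ σ) (φ σ'), a y) * ∏ y ∈ ovl D (φ σ') (φ σ), b y ≤
      (Fintype.card S : ℝ) * ((∏ y ∈ D, (1 + q * a y)) * ∏ y ∈ D, (1 + b y)) := by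
    intro σ
    have h2 : ∀ σ', (∏ y ∈ ovl D (φ σ) (φ σ'), a y) * ∏ y ∈ ovl D (φ σ') (φ σ), b y ≤
        ∑ R ∈ D.powerset, ∑ R' ∈ D.powerset,
          if R'.image (φ σ') = R.image (φ σ) then (∏ y ∈ R, a y) * ∏ y ∈ R', b y else 0 := by
      intro σ'
      have h0 : ∀ R R' : Finset T, 0 ≤ if R'.image (φ σ') = R.image (φ σ) then
          (∏ y ∈ R, a y) * ∏ y ∈ R', b y else 0 := by
        intro R R'
        split_ifs
        · exact mul_nonneg (Finset.prod_nonneg (fun y _ => ha y))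
            (Finset.prod_nonneg (fun y _ => hb y))
        · exact le_rfl
      refine le_trans ?_ (Finset.single_le_sum (f := fun R => ∑ R' ∈ D.powerset,
          if R'.image (φ σ') = R.image (φ σ) then (∏ y ∈ R, a y) * ∏ y ∈ R', b y else 0)
        (fun R _ => Finset.sum_nonneg (fun R' _ => h0 R R'))
        (mem_powerset.2 (Finset.filter_subset _ D) : ovl D (φ σ) (φ σ') ∈ _))
      refine le_trans ?_ (Finset.single_le_sum (fun R' _ => h0 _ R')
        (mem_powerset.2 (Finset.filter_subset _ D) : ovl D (φ σ') (φ σ) ∈ _))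
      rw [if_pos (image_ovl D _ _)]
    refine (Finset.sum_le_sum (fun σ' _ => h2 σ')).trans ?_
    rw [Finset.sum_comm, Finset.prod_one_add, Finset.prod_one_add, Finset.sum_mul, Finset.mul_sum]
    refine Finset.sum_le_sum (fun R _ => ?_)
    rw [Finset.sum_comm, Finset.mul_sum, Finset.mul_sum]
    refine Finset.sum_le_sum (fun R' _ => ?_)
    rw [← Finset.sum_filter, Finset.sum_const, nsmul_eq_mul]
    refine (mul_le_mul_of_nonneg_right (hq R' _) (mul_nonneg
      (Finset.prod_nonneg (fun y _ => ha y)) (Finset.prod_nonneg (fun y _ => hb y)))).trans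
      (le_of_eq ?_)
    rw [Finset.card_image_of_injective _ (hφ σ), Finset.prod_mul_distrib, Finset.prod_const]
    ring
  refine (Finset.sum_le_sum (fun σ _ => h1 σ)).trans (le_of_eq ?_)
  rw [Finset.sum_const, Finset.card_univ, nsmul_eq_mul]
  ring

open Classical in
/-- local bound for the density after one step -/
noncomputable def fb (A F : Finset T) (lev : T → O) (P : O → ℝ) (β : T → O → ℝ) (f g : T → X)
    (τ : X → O) (y' : T) : ℝ :=
  if y' ∈ A then sm P β y' * (if ∃ y ∈ A, f y = g y' ∧ lev y = lev y' then 2 / P (lev y')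
    else if τ (g y') = lev y' then 1 / P (lev y') else 0)
  else if y' ∈ F then 2 * β y' (τ (g y')) else 1

lemma kx_cases {f : T → X} (hf : Function.Injective f) (x : X) (l : O) :
    (∃ y ∈ A, f y = x ∧ ∀ z, kx A F lev f x l z = if z = (lev y, true) then 1 else 0) ∨
    ((¬ ∃ y ∈ A, f y = x) ∧ ∀ z, kx A F lev f x l z = if z = (l, false) then 1 else 0) ∨
    ((¬ ∃ y ∈ A, f y = x) ∧ ∀ z, kx A F lev f x l z = kout l z) := by
  by_cases hx : ∃ y, f y = x
  · obtain ⟨y, rfl⟩ := hx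
    by_cases hA : y ∈ A
    · exact Or.inl ⟨y, hA, rfl, fun z => by simp only [kx, ext_in hf, kin, hA, if_true]⟩
    · have h1 : ¬ ∃ y' ∈ A, f y' = f y := by
        rintro ⟨y', h2, h3⟩
        exact hA (hf h3 ▸ h2)
      by_cases hF : y ∈ F
      · exact Or.inr (Or.inl ⟨h1, fun z => by
          simp only [kx, ext_in hf, kin, hA, hF, if_true, if_false]⟩)
      · exact Or.inr (Or.inr ⟨h1, fun z => by
          simp only [kx, ext_in hf, kin, hA, hF, if_false]⟩)
  · refine Or.inr (Or.inr ⟨fun ⟨y, _, h⟩ => hx ⟨y, h⟩, fun z => ?_⟩)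
    simp only [kx, ext_out _ _ hx]

lemma fb_le (hP : ∀ l, 0 < P l) (hβ0 : ∀ y l, 0 ≤ β y l) {f : T → X} (hf : Function.Injective f)
    (g : T → X) (τ : X → O) (y' : T) :
    ∑ z, kx A F lev f (g y') (τ (g y')) z * lin A F lev P β y' z ≤ fb A F lev P β f g τ y' := by
  classical
  have hs := sm_nonneg hP hβ0 y'
  have hp := hP (lev y')
  have hb := hβ0 y' (τ (g y'))
  unfold fb
  by_cases hA : y' ∈ A
  · simp only [lin, hA, if_true, mul_ite, mul_zero]
    rw [Finset.sum_ite_eq']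
    simp only [mem_univ, if_true]
    rcases kx_cases (A := A) (F := F) (lev := lev) hf (g y') (τ (g y')) with
      ⟨y, hy, h1, h2⟩ | ⟨h1, h2⟩ | ⟨h1, h2⟩
    · rw [h2]
      by_cases h3 : lev y = lev y'
      · rw [if_pos (by rw [h3]), if_pos ⟨y, hy, h1, h3⟩, one_mul]
      · rw [if_neg (fun h => h3 (Prod.ext_iff.1 h).1.symm), zero_mul]
        split_ifs <;> positivity
    · rw [h2, if_neg (by simp), zero_mul]
      split_ifs <;> positivity
    · rw [h2, if_neg (fun ⟨y, hy, h3, _⟩ => h1 ⟨y, hy, h3⟩), kout]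
      by_cases h3 : τ (g y') = lev y'
      · rw [if_pos h3.symm, if_pos h3]
        exact le_of_eq (by ring)
      · rw [if_neg (fun h => h3 h.symm), if_neg h3, zero_mul]
  · by_cases hF : y' ∈ F
    · simp only [lin, hA, hF, if_true, if_false]
      rcases kx_cases (A := A) (F := F) (lev := lev) hf (g y') (τ (g y')) with
        ⟨y, hy, h1, h2⟩ | ⟨h1, h2⟩ | ⟨h1, h2⟩
      · simp only [h2, ite_mul, one_mul, zero_mul]
        rw [Finset.sum_ite_eq']
        simp only [mem_univ, if_true, Bool.true_eq_false, if_false]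
        positivity
      · simp only [h2, ite_mul, one_mul, zero_mul]
        rw [Finset.sum_ite_eq']
        simp
      · simp only [h2, kout, Fintype.sum_prod_type, Fintype.sum_bool, Bool.true_eq_false,
          if_false, if_true, mul_zero, zero_add, ite_mul, zero_mul, ite_self]
        rw [Finset.sum_ite_eq']
        simp only [mem_univ, if_true]
        linarith
    · simp only [lin, hA, hF, if_false, mul_one]
      exact (sum_kx hf _ _).le

lemma lin_nonneg (hP : ∀ l, 0 < P l) (hβ0 : ∀ y l, 0 ≤ β y l) (y : T) (z : O × Bool) :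
    0 ≤ lin A F lev P β y z := by
  unfold lin
  have := sm_nonneg hP hβ0 y
  have := hP (lev y)
  have := hβ0 y z.1
  split_ifs <;> positivity

lemma hop {φ : S → T → X} (hφ : ∀ σ, Function.Injective (φ σ))
    (hP : ∀ l, 0 < P l) (hP1 : ∑ l, P l = 1) (hβ0 : ∀ y l, 0 ≤ β y l)
    (hβ : ∀ y, y ∉ A → y ∉ F → ∀ l, β y l = 1) (hdisj : ∀ y ∈ F, y ∉ A)
    {ν : S → (X → O) → ℝ} (hν0 : ∀ σ τ, 0 ≤ ν σ τ) {M : ℝ} (hM0 : 0 ≤ M)
    (hνa : ∀ τ, ∑ σ, ν σ τ ≤ ∏ x, P (τ x))
    (hνb : ∀ σ τ, ν σ τ ≤ M * ((∏ x, P (τ x)) * ∏ y, β y (τ (φ σ y))))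
    (good : S → S → Prop) {δ : ℝ} (hδ : 0 < δ) {q c θ : ℝ} {ω w : T → ℝ} (hq0 : 0 ≤ q)
    (hq : ∀ (R : Finset T) (B : Finset X),
      ((univ.filter (fun σ => R.image (φ σ) = B)).card : ℝ) ≤ Fintype.card S * q ^ B.card)
    (hc : 0 ≤ c) (hω : ∀ y, 0 ≤ ω y) (hw : ∀ y, 0 ≤ w y) (hθ : 0 ≤ θ)
    (hAA : ∀ y ∈ A, ∀ y' ∈ A, lev y = lev y' → 2 / P (lev y) ≤ c * ω y * ω y')
    (hFF : ∀ y ∈ F, ∀ y' ∈ F, ∀ l, 2 / P l ≤ c * ω y * ω y')
    (hbad : ∀ σ σ', ¬ good σ σ' → 1 ≤ θ * ∏ y ∈ ovl (A ∪ F) (φ σ) (φ σ'), w y)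
    {β' : T → O → ℝ} {C : ℝ} (hβ'0 : ∀ y l, 0 ≤ β' y l) (hC0 : 0 ≤ C)
    (hC : ∀ σ σ' τ, ν σ τ ≠ 0 → good σ σ' →
      ∏ y', fb A F lev P β (φ σ) (φ σ') τ y' ≤ C * ∏ y', β' y' (τ (φ σ' y'))) :
    ∃ ν' : S → (X → O) → ℝ, (∀ σ τ, 0 ≤ ν' σ τ) ∧ (∀ τ, ∑ σ, ν' σ τ ≤ ∏ x, P (τ x)) ∧
      (∀ σ τ, ν' σ τ ≤ δ⁻¹ * M * C * ((∏ x, P (τ x)) * ∏ y, β' y (τ (φ σ y)))) ∧
      (∀ σ' τ, ν' σ' τ ≠ 0 → ∃ σ τ'', ν σ τ ≠ 0 ∧ good σ σ' ∧ ν σ' τ'' ≠ 0 ∧
        (∀ y' ∈ F, τ'' (φ σ' y') = τ (φ σ' y')) ∧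
        ∀ y' ∈ A, τ (φ σ' y') = lev y' ∨ ∃ y ∈ A, φ σ y = φ σ' y' ∧ lev y = lev y') ∧
      (∑ σ, ∑ τ, ν σ τ - δ - δ⁻¹ * ((M * Fintype.card S * ∏ y, sm P β y) ^ 2 * θ *
        ((∏ y ∈ A ∪ F, (1 + q * (c * ω y * w y))) * ∏ y ∈ A ∪ F, (1 + ω y))) ≤
        ∑ σ, ∑ τ, ν' σ τ) := by
  classical
  have hlx0 : ∀ σ x z, 0 ≤ lx A F lev P β (φ σ) x z := by
    intro σ x z
    unfold lx
    by_cases h1 : ∃ y, φ σ y = x
    · obtain ⟨y, rfl⟩ := h1
      rw [ext_in (hφ σ)]
      exact lin_nonneg hP hβ0 y z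
    · rw [ext_out _ _ h1]; norm_num
  obtain ⟨ν', h0, h1, h2, h3, h4⟩ := resample ν hν0
    (fun σ τ (z : X → O × Bool) => ∏ x, kx A F lev (φ σ) x (τ x) (z x))
    (fun σ τ z => Finset.prod_nonneg (fun x _ => kx_nonneg (hφ σ) _ _ _))
    (fun σ τ => by
      rw [← Fintype.prod_sum (fun x z => kx A F lev (φ σ) x (τ x) z)]
      simp only [sum_kx (hφ σ), Finset.prod_const_one])
    (fun z => ∏ x, P (z x).1 / 2)
    (fun z => Finset.prod_pos (fun x _ => by have := hP (z x).1; positivity))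
    (by
      rw [← Fintype.prod_sum (fun (_ : X) (z : O × Bool) => P z.1 / 2)]
      simp only [sum_P_half hP1, Finset.prod_const_one])
    (fun σ z => M * ∏ x, lx A F lev P β (φ σ) x (z x))
    (fun σ z => by
      have e1 : ∀ τ : X → O, ∏ y, β y (τ (φ σ y)) =
          ∏ x, ext (φ σ) (fun y => β y (τ x)) 1 x := by
        intro τ
        rw [prod_in (hφ σ) _ (fun x hx => ext_out _ _ hx)]
        simp only [ext_in (hφ σ)]
      calc _ ≤ ∑ τ : X → O, M * ∏ x, (P (τ x) * ext (φ σ) (fun y => β y (τ x)) 1 x *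
              kx A F lev (φ σ) x (τ x) (z x)) := by
            refine Finset.sum_le_sum (fun τ _ => ?_)
            refine (mul_le_mul_of_nonneg_right (hνb σ τ)
              (Finset.prod_nonneg (fun x _ => kx_nonneg (hφ σ) _ _ _))).trans (le_of_eq ?_)
            rw [e1, Finset.prod_mul_distrib, Finset.prod_mul_distrib]
            ring
        _ = M * ∏ x, ∑ l, (P l * ext (φ σ) (fun y => β y l) 1 x *
              kx A F lev (φ σ) x l (z x)) := by
            rw [← Finset.mul_sum, Fintype.prod_sum]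
        _ = M * ∏ x, (P (z x).1 / 2 * lx A F lev P β (φ σ) x (z x)) := by
            congr 1
            refine Finset.prod_congr rfl (fun x _ => ?_)
            by_cases hx : ∃ y, φ σ y = x
            · obtain ⟨y, rfl⟩ := hx
              simp only [kx, lx, ext_in (hφ σ)]
              exact sum_P_kin hP hβ y _
            · simp only [kx, lx, ext_out _ _ hx, mul_one]
              exact sum_P_kout _
        _ = _ := by rw [Finset.prod_mul_distrib]; ring)
    good δ hδ
  refine ⟨ν', h0, fun τ => (h1 τ).trans (hνa τ), fun σ' τ => (h2 σ' τ).trans ?_, ?_,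
    le_trans ?_ h4⟩
  · have hb0 : 0 ≤ ∏ y, β' y (τ (φ σ' y)) := Finset.prod_nonneg (fun y _ => hβ'0 _ _)
    have e : δ⁻¹ * M * C * ((∏ x, P (τ x)) * ∏ y, β' y (τ (φ σ' y))) =
        δ⁻¹ * ((∏ x, P (τ x)) * (M * (C * ∏ y, β' y (τ (φ σ' y))))) := by ring
    rw [e]
    refine mul_le_mul_of_nonneg_left ?_ (inv_nonneg.2 hδ.le)
    have hn : 0 ≤ M * (C * ∏ y, β' y (τ (φ σ' y))) := mul_nonneg hM0 (mul_nonneg hC0 hb0)
    refine le_trans ?_ (mul_le_mul_of_nonneg_right (hνa τ) hn)
    rw [Finset.sum_mul]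
    refine Finset.sum_le_sum (fun σ _ => ?_)
    split_ifs with hg
    · by_cases hν : ν σ τ = 0
      · simp [hν]
      refine mul_le_mul_of_nonneg_left ?_ (hν0 σ τ)
      have e2 : ∀ z : X → O × Bool, (∏ x, kx A F lev (φ σ) x (τ x) (z x)) *
          (M * ∏ x, lx A F lev P β (φ σ') x (z x)) =
          M * ∏ x, (kx A F lev (φ σ) x (τ x) (z x) * lx A F lev P β (φ σ') x (z x)) := by
        intro z
        rw [Finset.prod_mul_distrib]; ring
      simp only [e2]
      rw [← Finset.mul_sum,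
        ← Fintype.prod_sum (fun x z => kx A F lev (φ σ) x (τ x) z * lx A F lev P β (φ σ') x z)]
      refine mul_le_mul_of_nonneg_left (le_trans ?_ (hC σ σ' τ hν hg)) hM0
      rw [prod_in (hφ σ') _ (fun x hx => by
        simp only [lx, ext_out _ _ hx, mul_one]; exact sum_kx (hφ σ) _ _)]
      refine Finset.prod_le_prod (fun y _ => Finset.sum_nonneg (fun z _ =>
        mul_nonneg (kx_nonneg (hφ σ) _ _ _) (hlx0 σ' _ z))) (fun y _ => ?_)
      simp only [lx, ext_in (hφ σ')]
      exact fb_le hP hβ0 (hφ σ) (φ σ') τ y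
    · exact mul_nonneg (hν0 σ τ) hn
  · intro σ' τ hne
    obtain ⟨σ, z, τ'', a1, a2, a3, a4, a5⟩ := h3 σ' τ hne
    rw [Finset.prod_ne_zero_iff] at a3 a5
    refine ⟨σ, τ'', a1, a2, a4, fun y' hy' => ?_, fun y' hy' => ?_⟩
    · have b1 := a5 (φ σ' y') (mem_univ _)
      simp only [kx, ext_in (hφ σ'), kin, hdisj y' hy', hy', if_true, if_false, ne_eq,
        ite_eq_right_iff, one_ne_zero, imp_false, not_not] at b1
      have b2 := a3 (φ σ' y') (mem_univ _)
      rcases kx_cases (A := A) (F := F) (lev := lev) (hφ σ) (φ σ' y') (τ (φ σ' y')) with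
        ⟨y, hy, c1, c2⟩ | ⟨c1, c2⟩ | ⟨c1, c2⟩
      · rw [c2, b1, if_neg (by simp)] at b2
        exact absurd rfl b2
      · rw [c2, b1] at b2
        by_contra hh
        exact b2 (if_neg (fun h => hh (Prod.ext_iff.1 h).1))
      · rw [c2, b1, kout] at b2
        by_contra hh
        exact b2 (if_neg hh)
    · have b1 := a5 (φ σ' y') (mem_univ _)
      simp only [kx, ext_in (hφ σ'), kin, hy', if_true, ne_eq,
        ite_eq_right_iff, one_ne_zero, imp_false, not_not] at b1
      have b2 := a3 (φ σ' y') (mem_univ _)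
      rcases kx_cases (A := A) (F := F) (lev := lev) (hφ σ) (φ σ' y') (τ (φ σ' y')) with
        ⟨y, hy, c1, c2⟩ | ⟨c1, c2⟩ | ⟨c1, c2⟩
      · rw [c2, b1] at b2
        refine Or.inr ⟨y, hy, c1, ?_⟩
        by_contra hh
        exact b2 (if_neg (fun h => hh (Prod.ext_iff.1 h).1.symm))
      · rw [c2, b1, if_neg (by simp)] at b2
        exact absurd rfl b2
      · rw [c2, b1, kout] at b2
        left
        by_contra hh
        exact b2 (if_neg (fun h => hh h.symm))
  · refine sub_le_sub_left (mul_le_mul_of_nonneg_left ?_ (inv_nonneg.2 hδ.le)) _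
    have hs0 : 0 ≤ ∏ y, sm P β y := Finset.prod_nonneg (fun y _ => sm_nonneg hP hβ0 y)
    have hcnt := second_count hφ hq0 hq (A ∪ F) (a := fun y => c * ω y * w y) (b := ω)
      (fun y => mul_nonneg (mul_nonneg hc (hω y)) (hw y)) hω
    have e : (M * Fintype.card S * ∏ y, sm P β y) ^ 2 * θ *
        ((∏ y ∈ A ∪ F, (1 + q * (c * ω y * w y))) * ∏ y ∈ A ∪ F, (1 + ω y)) =
        (M ^ 2 * (∏ y, sm P β y) ^ 2 * θ) * ((Fintype.card S : ℝ) ^ 2 *
        ((∏ y ∈ A ∪ F, (1 + q * (c * ω y * w y))) * ∏ y ∈ A ∪ F, (1 + ω y))) := by ring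
    rw [e]
    refine le_trans ?_ (mul_le_mul_of_nonneg_left hcnt (by positivity))
    rw [Finset.mul_sum]
    refine Finset.sum_le_sum (fun σ _ => ?_)
    rw [Finset.mul_sum]
    refine Finset.sum_le_sum (fun σ' _ => ?_)
    have g1 : 0 ≤ ∏ y ∈ ovl (A ∪ F) (φ σ) (φ σ'), c * ω y :=
      Finset.prod_nonneg (fun y _ => mul_nonneg hc (hω y))
    have g2 : 0 ≤ ∏ y ∈ ovl (A ∪ F) (φ σ') (φ σ), ω y := Finset.prod_nonneg (fun y _ => hω y)
    have g3 : 0 ≤ ∏ y ∈ ovl (A ∪ F) (φ σ) (φ σ'), w y := Finset.prod_nonneg (fun y _ => hw y)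
    rw [Finset.prod_mul_distrib (f := fun y => c * ω y)]
    split_ifs with hg
    · positivity
    · have g4 := second_prod hP hP1 hβ0 hβ hc hω hAA hFF (hφ σ) (hφ σ')
      have e2 : ∀ z : X → O × Bool, (∏ x, P (z x).1 / 2) *
          (M * (∏ x, lx A F lev P β (φ σ) x (z x)) * (M * ∏ x, lx A F lev P β (φ σ') x (z x))) =
          M ^ 2 * ((∏ x, P (z x).1 / 2) * ((∏ x, lx A F lev P β (φ σ) x (z x)) *
            ∏ x, lx A F lev P β (φ σ') x (z x))) := fun z => by ring
      simp only [e2]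
      rw [← Finset.mul_sum]
      refine (mul_le_mul_of_nonneg_left g4 (sq_nonneg M)).trans ?_
      have g5 := hbad σ σ' hg
      have g6 : 0 ≤ M ^ 2 * ((∏ y, sm P β y) * (∏ y, sm P β y) *
        ((∏ y ∈ ovl (A ∪ F) (φ σ) (φ σ'), c * ω y) * ∏ y ∈ ovl (A ∪ F) (φ σ') (φ σ), ω y)) := by
        positivity
      refine (le_mul_of_one_le_right g6 g5).trans (le_of_eq ?_)
      ring

end Vale.Agent.P064
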