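import Mathlib

/-!
Numerical parameters of the tower of levels.
-/

namespace Vale.Agent.P064

open Finset

def ee (i : ℕ) : ℕ := 220 + 10 * i

noncomputable def pp (q : ℝ) (i : ℕ) : ℝ := q * 16 ^ ee i

noncomputable def eta (i : ℕ) : ℝ := (1 / 4) ^ i / 2

noncomputable def BB (q : ℝ) (L : ℕ) : ℕ → ℕ → Fin (L + 2) → ℝ
  | 0, _, _ => 1
  | t + 1, j, l => if t ≤ j ∧ j ≤ t + L then
      (if l.val = j - t then 1 / pp q (j - t) else 0) + eta (j - t) * BB q L t j l
    else BB q L t j l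

noncomputable def cc : ℝ := 1 / (4 * 16 ^ 10)

noncomputable def Xf (q : ℝ) (L t j : ℕ) (l : Fin (L + 2)) : ℝ :=
  max 1 (cc / (pp q (j - t) * BB q L t j l))

noncomputable def Rf (q : ℝ) (L t j : ℕ) (l : Fin (L + 2)) : ℝ :=
  max 1 (1 / (pp q (j - t) * BB q L (t + 1) j l))

noncomputable def Gf (q : ℝ) (L t j : ℕ) (l : Fin (L + 2)) : ℝ :=
  2 ^ (44 + 2 * (j - t)) * Xf q L t j l

noncomputable def hh (t : ℕ) : ℝ := 2 ^ (2 ^ t)

variable {q : ℝ} {L : ℕ}

lemma pp_pos (hq : 0 < q) (i : ℕ) : 0 < pp q i := by unfold pp; positivity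

lemma pp_succ (i : ℕ) : pp q (i + 1) = pp q i * 16 ^ 10 := by
  unfold pp ee
  rw [show 220 + 10 * (i + 1) = 220 + 10 * i + 10 by ring, pow_add, mul_assoc]

lemma eta_pos (i : ℕ) : 0 < eta i := by unfold eta; positivity

lemma eta_le (i : ℕ) : eta i ≤ 1 / 2 := by
  unfold eta
  have : (1 / 4 : ℝ) ^ i ≤ 1 := pow_le_one₀ (by norm_num) (by norm_num)
  linarith

lemma cc_pos : 0 < cc := by unfold cc; positivity

lemma BB_pos (hq : 0 < q) (t j : ℕ) (l : Fin (L + 2)) : 0 < BB q L t j l := by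
  induction t with
  | zero => simp [BB]
  | succ t ih =>
    rw [BB]
    have h1 := pp_pos hq (j - t)
    have h2 := eta_pos (j - t)
    split_ifs <;> positivity

lemma BB_one {t j : ℕ} (h : t + L ≤ j) (l : Fin (L + 2)) : BB q L t j l = 1 := by
  induction t with
  | zero => simp [BB]
  | succ t ih =>
    rw [BB, if_neg (by omega), ih (by omega)]

lemma BB_act {t j : ℕ} (h1 : t ≤ j) (h2 : j ≤ t + L) (l : Fin (L + 2)) :
    BB q L (t + 1) j l =
      (if l.val = j - t then 1 / pp q (j - t) else 0) + eta (j - t) * BB q L t j l := by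
  rw [BB, if_pos ⟨h1, h2⟩]

lemma BB_not {t j : ℕ} (h : ¬ (t ≤ j ∧ j ≤ t + L)) (l : Fin (L + 2)) :
    BB q L (t + 1) j l = BB q L t j l := by
  rw [BB, if_neg h]

lemma sum_BB_act {P : Fin (L + 2) → ℝ} (hq : 0 < q)
    (hPl : ∀ l : Fin (L + 2), l.val ≤ L → P l = pp q l.val) {t j : ℕ} (h1 : t ≤ j)
    (h2 : j ≤ t + L) :
    ∑ l, P l * BB q L (t + 1) j l = 1 + eta (j - t) * ∑ l, P l * BB q L t j l := by
  simp only [BB_act h1 h2, mul_add]
  rw [Finset.sum_add_distrib, Finset.mul_sum]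
  congr 1
  · have hlt : j - t < L + 2 := by omega
    rw [Finset.sum_eq_single (⟨j - t, hlt⟩ : Fin (L + 2))]
    · rw [hPl _ (by simp; omega)]
      have := (pp_pos hq (j - t)).ne'
      simp only [if_true]
      field_simp
    · intro l _ hl
      rw [if_neg (fun h => hl (Fin.ext h)), mul_zero]
    · intro h; exact absurd (mem_univ _) h
  · refine Finset.sum_congr rfl (fun l _ => by ring)

lemma sum_BB_le {P : Fin (L + 2) → ℝ} (hq : 0 < q) (hP1 : ∑ l, P l = 1)
    (hPl : ∀ l : Fin (L + 2), l.val ≤ L → P l = pp q l.val) (t j : ℕ) :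
    ∑ l, P l * BB q L t j l ≤ 2 := by
  induction t with
  | zero => simp [BB, hP1]
  | succ t ih =>
    by_cases h : t ≤ j ∧ j ≤ t + L
    · rw [sum_BB_act hq hPl h.1 h.2]
      have h1 := eta_pos (j - t)
      have h2 := eta_le (j - t)
      nlinarith
    · simpa only [BB_not h] using ih

lemma sum_BB_le' {P : Fin (L + 2) → ℝ} (hq : 0 < q) (hP1 : ∑ l, P l = 1)
    (hPl : ∀ l : Fin (L + 2), l.val ≤ L → P l = pp q l.val) {t j : ℕ} (h1 : t ≤ j) :
    ∑ l, P l * BB q L t j l ≤ 1 + (1 / 4) ^ (j - t) / 4 := by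
  have h0 : (0 : ℝ) ≤ (1 / 4) ^ (j - t) / 4 := by positivity
  by_cases h : t + L ≤ j
  · simp only [BB_one h, mul_one, hP1]
    linarith
  · cases t with
    | zero => simp only [BB, mul_one, hP1]; linarith
    | succ t =>
      rw [sum_BB_act hq hPl (by omega) (by omega)]
      have h2 := sum_BB_le hq hP1 hPl t j
      have h3 : eta (j - t) = (1 / 4) ^ (j - (t + 1)) / 8 := by
        unfold eta
        rw [show j - t = j - (t + 1) + 1 by omega, pow_succ]
        ring
      have h4 := eta_pos (j - t)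
      nlinarith

lemma one_le_Xf (t j : ℕ) (l : Fin (L + 2)) : 1 ≤ Xf q L t j l := le_max_left _ _

lemma one_le_Rf (t j : ℕ) (l : Fin (L + 2)) : 1 ≤ Rf q L t j l := le_max_left _ _

lemma one_le_Gf (t j : ℕ) (l : Fin (L + 2)) : 1 ≤ Gf q L t j l :=
  one_le_mul_of_one_le_of_one_le (one_le_pow₀ (by norm_num)) (one_le_Xf t j l)

lemma Gf_key (hq : 0 < q) {t j : ℕ} (h1 : t ≤ j) (h2 : j ≤ t + L) (l : Fin (L + 2)) :
    2 / pp q (j - t) ≤ Gf q L t j l * BB q L (t + 1) j l := by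
  have hp := pp_pos hq (j - t)
  have hb := BB_pos hq t j l
  have he := eta_pos (j - t)
  have h3 : eta (j - t) * BB q L t j l ≤ BB q L (t + 1) j l := by
    rw [BB_act h1 h2]
    split_ifs
    · have : 0 < 1 / pp q (j - t) := by positivity
      linarith
    · linarith
  have h4 : cc / (pp q (j - t) * BB q L t j l) ≤ Xf q L t j l := le_max_right _ _
  have h5 : (2 : ℝ) ^ (44 + 2 * (j - t)) * cc * eta (j - t) = 2 := by
    unfold cc eta
    rw [pow_add, pow_mul, one_div (4 : ℝ), inv_pow]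
    have : (4 : ℝ) ^ (j - t) ≠ 0 := by positivity
    norm_num
    field_simp
    norm_num
  calc 2 / pp q (j - t) = 2 ^ (44 + 2 * (j - t)) * (cc / (pp q (j - t) * BB q L t j l)) *
        (eta (j - t) * BB q L t j l) := by
        conv_lhs => rw [← h5]
        field_simp
    _ ≤ _ := by
        unfold Gf
        refine mul_le_mul (mul_le_mul_of_nonneg_left h4 (by positivity)) h3 (by positivity) ?_
        exact mul_nonneg (by positivity) (le_trans zero_le_one (one_le_Xf t j l))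

lemma Rf_le_Gf (hq : 0 < q) {t j : ℕ} (h1 : t ≤ j) (h2 : j ≤ t + L) (l : Fin (L + 2)) :
    Rf q L t j l ≤ Gf q L t j l := by
  refine max_le (one_le_Gf t j l) ?_
  have hp := pp_pos hq (j - t)
  have hb := BB_pos hq (t + 1) j l
  have h3 := Gf_key hq h1 h2 l
  rw [div_le_iff₀ hp] at h3
  rw [div_le_iff₀ (mul_pos hp hb)]
  nlinarith

lemma succ_key (hq : 0 < q) {t j : ℕ} (h1 : t ≤ j) (h2 : j ≤ t + L) {l : Fin (L + 2)}
    (hl : l.val = j - t) : 1 / pp q (j - t) ≤ BB q L (t + 1) j l := by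
  rw [BB_act h1 h2, if_pos hl]
  have := mul_pos (eta_pos (j - t)) (BB_pos hq t j l)
  linarith

lemma Rf_succ (hq : 0 < q) {t j : ℕ} (h1 : t ≤ j) (h2 : j ≤ t + L) {l : Fin (L + 2)}
    (hl : l.val = j - t) : Rf q L t j l ≤ 1 := by
  refine max_le le_rfl ?_
  have hp := pp_pos hq (j - t)
  have hb := BB_pos hq (t + 1) j l
  have h3 := succ_key hq h1 h2 hl
  rw [div_le_iff₀ hp] at h3
  rw [div_le_iff₀ (mul_pos hp hb)]
  nlinarith

lemma Xf_le_Rf (hq : 0 < q) {t j : ℕ} (h1 : t + 1 ≤ j) (l : Fin (L + 2)) :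
    Xf q L (t + 1) j l ≤ Rf q L t j l := by
  refine max_le_max le_rfl ?_
  have hp := pp_pos hq (j - (t + 1))
  have hb := BB_pos hq (t + 1) j l
  rw [show j - t = j - (t + 1) + 1 by omega, pp_succ, div_le_div_iff₀ (by positivity)
    (by positivity)]
  unfold cc
  have := mul_pos hp hb
  nlinarith

lemma Xf_new (hq : 0 < q) (hL : 1 ≤ 4 * 16 ^ 10 * pp q L) {t j : ℕ} (h : j = t + L)
    (l : Fin (L + 2)) : Xf q L t j l = 1 := by
  refine max_eq_left ?_
  rw [BB_one (by omega), mul_one, show j - t = L by omega, div_le_one (pp_pos hq L)]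
  unfold cc
  rw [div_le_iff₀ (by positivity)]
  linarith

lemma hh_succ (t : ℕ) : hh (t + 1) = hh t ^ 2 := by
  unfold hh
  rw [← pow_mul, pow_succ]

lemma one_le_hh (t : ℕ) : 1 ≤ hh t := one_le_pow₀ (by norm_num)

lemma hh_pos (t : ℕ) : 0 < hh t := lt_of_lt_of_le one_pos (one_le_hh t)

lemma hh_pow (t n : ℕ) : hh t ^ n = 2 ^ (n * 2 ^ t) := by
  unfold hh
  rw [← pow_mul, mul_comm]

lemma two_pow_le_hh (t : ℕ) : (2 : ℝ) ^ (t + 3) ≤ hh t ^ 3 := by
  rw [hh_pow]
  refine pow_le_pow_right₀ (by norm_num) ?_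
  have := Nat.lt_two_pow_self (n := t)
  omega

lemma prod_one_add_le {α : Type} (D : Finset α) {f : α → ℝ} (hf : ∀ y, 0 ≤ f y) {n : ℕ}
    (h : ∑ y ∈ D, f y ≤ n) : ∏ y ∈ D, (1 + f y) ≤ 4 ^ n := by
  have h1 : ∏ y ∈ D, (1 + f y) ≤ Real.exp (∑ y ∈ D, f y) := by
    rw [Real.exp_sum]
    refine Finset.prod_le_prod (fun y _ => by linarith [hf y]) (fun y _ => ?_)
    linarith [Real.add_one_le_exp (f y)]
  have h2 : Real.exp (n : ℝ) ≤ 4 ^ n := by
    rw [← mul_one (n : ℝ), Real.exp_nat_mul]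
    exact pow_le_pow_left₀ (Real.exp_pos _).le
      (le_trans Real.exp_one_lt_d9.le (by norm_num)) n
  exact h1.trans ((Real.exp_le_exp.2 h).trans h2)

lemma exists_levels (hq : 0 < q) (h0 : pp q 0 ≤ 1 / 4) :
    ∃ (L : ℕ) (P : Fin (L + 2) → ℝ), ∑ l, P l = 1 ∧
      (∀ l : Fin (L + 2), l.val ≤ L → P l = pp q l.val) ∧
      (∀ l : Fin (L + 2), pp q 0 * 2 ^ l.val ≤ P l) ∧ 1 ≤ 4 * 16 ^ 10 * pp q L := by
  classical
  have hgrow : ∀ i k, pp q i * 2 ^ k ≤ pp q (i + k) := by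
    intro i k
    induction k with
    | zero => simp
    | succ k ih =>
      rw [← add_assoc, pp_succ, pow_succ]
      have := pp_pos hq (i + k)
      nlinarith
  have hex : ∃ L, 1 / 4 < pp q (L + 1) := by
    obtain ⟨n, hn⟩ := pow_unbounded_of_one_lt (1 / (4 * pp q 0)) (by norm_num : (1 : ℝ) < 2)
    refine ⟨n, ?_⟩
    have h1 := hgrow 0 (n + 1)
    have h2 := pp_pos hq 0
    rw [div_lt_iff₀ (by positivity)] at hn
    rw [zero_add, pow_succ] at h1
    have h3 : (0 : ℝ) < 2 ^ n := by positivity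
    nlinarith
  set L := Nat.find hex with hL
  have h1 : 1 / 4 < pp q (L + 1) := Nat.find_spec hex
  have h2 : pp q L ≤ 1 / 4 := by
    rcases Nat.eq_zero_or_pos L with h | h
    · rw [h]; exact h0
    · have := Nat.find_min hex (m := L - 1) (by omega)
      rw [show L - 1 + 1 = L by omega] at this
      exact not_lt.1 this
  have h3 : ∀ n, ∑ i ∈ range (n + 1), pp q i ≤ 2 * pp q n := by
    intro n
    induction n with
    | zero => simp; linarith [pp_pos hq 0]
    | succ n ih =>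
      rw [Finset.sum_range_succ]
      have := hgrow n 1
      linarith
  refine ⟨L, fun l => if l.val ≤ L then pp q l.val else 1 - ∑ i ∈ range (L + 1), pp q i,
    ?_, fun l hl => if_pos hl, fun l => ?_, ?_⟩
  · rw [Fin.sum_univ_castSucc, ← Fin.sum_univ_eq_sum_range]
    have : ∀ i : Fin (L + 1), i.val ≤ L := fun i => by omega
    simp only [this, if_true, Fin.val_last, Fin.val_castSucc]
    rw [if_neg (by omega)]
    ring
  · dsimp only
    split_ifs with h
    · simpa using hgrow 0 l.val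
    · have h4 : l.val = L + 1 := by omega
      have h5 := hgrow 0 L
      rw [zero_add] at h5
      rw [h4, pow_succ]
      linarith [h3 L]
  · rw [pp_succ] at h1
    linarith

end Vale.Agent.P064
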