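import Mathlib
import Vale.Agent.P064.Hop
import Vale.Agent.P064.Params

/-!
The inside-out construction of a coupling between a random copy and random levels.
-/

namespace Vale.Agent.P064

open Finset

set_option linter.unusedSectionVars false

variable {T X S : Type} [Fintype T] [DecidableEq T] [Fintype X] [DecidableEq X]
  [Fintype S] [DecidableEq S]

def act (sc : T → ℕ) (L t : ℕ) : Finset T := univ.filter (fun y => t ≤ sc y ∧ sc y ≤ t + L)

def fin (sc : T → ℕ) (t : ℕ) : Finset T := univ.filter (fun y => sc y < t)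

def lv (sc : T → ℕ) (L t : ℕ) (y : T) : Fin (L + 2) := ⟨min (sc y - t) (L + 1), by omega⟩

def Inv (q : ℝ) (L : ℕ) (sc : T → ℕ) (t : ℕ) (f : T → X) (τ : X → Fin (L + 2)) : Prop :=
  (t = 0 ∨ ∏ y ∈ act sc L t, Xf q L t (sc y) (τ (f y)) ≤ hh t ^ 30) ∧
  ∀ j < t, ∏ y ∈ univ.filter (fun y => sc y = j),
    max 1 (1 / (pp q 0 * BB q L t j (τ (f y)))) ≤ hh j ^ 60

def gd (L : ℕ) (sc : T → ℕ) (t : ℕ) (f g : T → X) : Prop :=
  ∑ y ∈ (ovl (act sc L t ∪ fin sc t) f g).filter (fun y => y ∈ act sc L t), ee (sc y - t) ≤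
    150 * 2 ^ t

open Classical in
noncomputable def ov (L : ℕ) (sc : T → ℕ) (t : ℕ) (f g : T → X) : Finset T :=
  (act sc L t).filter (fun y' => ∃ y ∈ act sc L t, f y = g y' ∧ lv sc L t y = lv sc L t y')

variable {q : ℝ} {L t : ℕ} {sc : T → ℕ}

lemma mem_act {y : T} : y ∈ act sc L t ↔ t ≤ sc y ∧ sc y ≤ t + L := by simp [act]

lemma mem_fin {y : T} : y ∈ fin sc t ↔ sc y < t := by simp [fin]

lemma lv_val {y : T} (h : y ∈ act sc L t) : (lv sc L t y).val = sc y - t := by
  have := mem_act.1 h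
  simp only [lv]
  omega

lemma mem_ov {f g : T → X} {y' : T} : y' ∈ ov L sc t f g ↔
    y' ∈ act sc L t ∧ ∃ y ∈ act sc L t, f y = g y' ∧ lv sc L t y = lv sc L t y' := by
  simp only [ov, mem_filter]

lemma pen_bound {f g : T → X} (hf : Function.Injective f) (hg : Function.Injective g)
    {τ : X → Fin (L + 2)} (hI : Inv q L sc t f τ) (hgd : gd L sc t f g) :
    ∏ y' ∈ ov L sc t f g, Gf q L t (sc y') (τ (g y')) ≤ hh t ^ 60 := by
  classical
  set O3 := (act sc L t).filter
    (fun y => ∃ y' ∈ act sc L t, f y = g y' ∧ lv sc L t y = lv sc L t y') with hO3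
  have e1 : ∏ y' ∈ ov L sc t f g, Gf q L t (sc y') (τ (g y')) =
      ∏ y ∈ O3, Gf q L t (sc y) (τ (f y)) := by
    refine Finset.prod_bij (fun y' hy' => (mem_ov.1 hy').2.choose) ?_ ?_ ?_ ?_
    · intro y' hy'
      obtain ⟨a, b⟩ := (mem_ov.1 hy').2.choose_spec
      exact mem_filter.2 ⟨a, y', (mem_ov.1 hy').1, b⟩
    · intro a ha b hb h
      have h1 := (mem_ov.1 ha).2.choose_spec.2.1
      have h2 := (mem_ov.1 hb).2.choose_spec.2.1
      exact hg (by rw [← h1, ← h2, h])
    · intro y hy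
      obtain ⟨a, y', b, c, d⟩ := mem_filter.1 hy
      have hy' : y' ∈ ov L sc t f g := mem_ov.2 ⟨b, y, a, c, d⟩
      exact ⟨y', hy', hf ((mem_ov.1 hy').2.choose_spec.2.1.trans c.symm)⟩
    · intro y' hy'
      obtain ⟨a, b, c⟩ := (mem_ov.1 hy').2.choose_spec
      have h1 := congrArg Fin.val c
      rw [lv_val a, lv_val (mem_ov.1 hy').1] at h1
      have h2 := mem_act.1 a
      have h3 := mem_act.1 (mem_ov.1 hy').1
      rw [b, show sc (mem_ov.1 hy').2.choose = sc y' by omega]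
  have hsub : O3 ⊆ (ovl (act sc L t ∪ fin sc t) f g).filter (fun y => y ∈ act sc L t) := by
    intro y hy
    obtain ⟨a, y', b, c, _⟩ := mem_filter.1 hy
    exact mem_filter.2 ⟨mem_filter.2 ⟨mem_union_left _ a,
      mem_image.2 ⟨y', mem_union_left _ b, c.symm⟩⟩, a⟩
  have h1 : ∑ y ∈ O3, ee (sc y - t) ≤ 150 * 2 ^ t :=
    (Finset.sum_le_sum_of_subset hsub).trans hgd
  have h2 : ∑ y ∈ O3, (44 + 2 * (sc y - t)) ≤ 30 * 2 ^ t := by
    have : 5 * ∑ y ∈ O3, (44 + 2 * (sc y - t)) = ∑ y ∈ O3, ee (sc y - t) := by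
      rw [Finset.mul_sum]
      refine Finset.sum_congr rfl (fun y _ => ?_)
      unfold ee; ring
    omega
  have h3 : ∏ y ∈ O3, Xf q L t (sc y) (τ (f y)) ≤ hh t ^ 30 := by
    rcases hI.1 with h | h
    · have : O3 = ∅ := by
        by_contra hne
        obtain ⟨y, hy⟩ := Finset.nonempty_iff_ne_empty.2 hne
        have h4 := Finset.single_le_sum (f := fun y => ee (sc y - t))
          (fun _ _ => Nat.zero_le _) hy
        rw [h] at h1 h4
        simp only [ee] at h1 h4
        omega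
      rw [this, Finset.prod_empty]
      exact one_le_pow₀ (one_le_hh t)
    · exact le_trans (Finset.prod_le_prod_of_subset_of_one_le (Finset.filter_subset _ _)
        (fun y _ => le_trans zero_le_one (one_le_Xf _ _ _)) (fun y _ _ => one_le_Xf _ _ _)) h
  rw [e1]
  unfold Gf
  rw [Finset.prod_mul_distrib, Finset.prod_pow_eq_pow_sum,
    show hh t ^ 60 = hh t ^ 30 * hh t ^ 30 by ring]
  refine mul_le_mul ?_ h3
    (Finset.prod_nonneg (fun y _ => le_trans zero_le_one (one_le_Xf _ _ _)))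
    (pow_nonneg (hh_pos t).le _)
  rw [hh_pow]
  exact pow_le_pow_right₀ (by norm_num) h2

noncomputable def UU (L : ℕ) (sc : T → ℕ) (t : ℕ) (y : T) : ℝ :=
  if y ∈ act sc L t then 1 + (1 / 4) ^ (sc y - t) / 4 else if y ∈ fin sc t then 2 else 1

lemma one_le_UU (y : T) : 1 ≤ UU L sc t y := by
  unfold UU
  have : (0 : ℝ) ≤ (1 / 4) ^ (sc y - t) / 4 := by positivity
  split_ifs <;> linarith

lemma prod_UU (hsc : ∀ j, (univ.filter (fun y => sc y < j)).card ≤ 2 ^ j) :
    ∏ y, UU L sc t y ≤ hh t ^ 3 := by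
  have h1 : ∏ y, UU L sc t y ≤ (∏ y ∈ act sc L t, (1 + (1 / 4 : ℝ) ^ (sc y - t) / 4)) *
      ∏ y ∈ fin sc t, (2 : ℝ) := by
    rw [← Finset.univ_inter (act sc L t), ← Finset.univ_inter (fin sc t), ← Finset.prod_ite_mem,
      ← Finset.prod_ite_mem, ← Finset.prod_mul_distrib]
    refine Finset.prod_le_prod (fun y _ => le_trans zero_le_one (one_le_UU y)) (fun y _ => ?_)
    unfold UU
    have : (0 : ℝ) ≤ (1 / 4) ^ (sc y - t) / 4 := by positivity
    split_ifs <;> linarith
  have h2 : ∑ y ∈ act sc L t, (1 / 4 : ℝ) ^ (sc y - t) / 4 ≤ ((2 ^ t : ℕ) : ℝ) := by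
    rw [← Finset.sum_fiberwise_of_maps_to (s := act sc L t) (t := range (L + 1))
      (g := fun y => sc y - t) (fun y hy => by
        have := mem_act.1 hy
        exact mem_range.2 (by omega))]
    have h3 : ∀ i ∈ range (L + 1), ∑ y ∈ (act sc L t).filter (fun y => sc y - t = i),
        (1 / 4 : ℝ) ^ (sc y - t) / 4 ≤ (2 ^ t / 2) * (1 / 2 : ℝ) ^ i := by
      intro i _
      rw [Finset.sum_congr rfl (g := fun _ => (1 / 4 : ℝ) ^ i / 4)
        (fun y hy => by rw [(mem_filter.1 hy).2]), Finset.sum_const, nsmul_eq_mul]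
      have h4 : ((act sc L t).filter (fun y => sc y - t = i)).card ≤ 2 ^ (t + i + 1) := by
        refine le_trans (Finset.card_le_card (fun y hy => ?_)) (hsc (t + i + 1))
        obtain ⟨a, b⟩ := mem_filter.1 hy
        have := mem_act.1 a
        exact mem_filter.2 ⟨mem_univ _, by omega⟩
      have h5 : (((act sc L t).filter (fun y => sc y - t = i)).card : ℝ) ≤ 2 ^ (t + i + 1) := by
        exact_mod_cast h4
      refine (mul_le_mul_of_nonneg_right h5 (by positivity)).trans (le_of_eq ?_)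
      have : (1 / 2 : ℝ) ^ i = 2 ^ i * (1 / 4 : ℝ) ^ i := by
        rw [← mul_pow]; norm_num
      rw [this]; ring
    refine (Finset.sum_le_sum h3).trans ?_
    rw [← Finset.mul_sum]
    have h6 : ∑ i ∈ range (L + 1), (1 / 2 : ℝ) ^ i ≤ 2 := by
      simpa using sum_geometric_two_le (L + 1)
    have h7 : (0 : ℝ) < 2 ^ t := by positivity
    push_cast
    nlinarith
  have h3 := prod_one_add_le (act sc L t) (f := fun y => (1 / 4 : ℝ) ^ (sc y - t) / 4)
    (fun y => by positivity) h2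
  have h4 : ∏ y ∈ fin sc t, (2 : ℝ) ≤ hh t := by
    rw [Finset.prod_const]
    exact pow_le_pow_right₀ (by norm_num) (hsc t)
  refine h1.trans ((mul_le_mul h3 h4 (by positivity) (by positivity)).trans (le_of_eq ?_))
  unfold hh
  rw [show (4 : ℝ) = 2 ^ 2 by norm_num, ← pow_mul]
  ring

lemma step {φ : S → T → X} (hφ : ∀ σ, Function.Injective (φ σ)) [Nonempty S] (hq0 : 0 < q)
    (hq : ∀ (R : Finset T) (B : Finset X),
      ((univ.filter (fun σ => R.image (φ σ) = B)).card : ℝ) ≤ Fintype.card S * q ^ B.card)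
    (hsc : ∀ j, (univ.filter (fun y => sc y < j)).card ≤ 2 ^ j)
    {P : Fin (L + 2) → ℝ} (hP1 : ∑ l, P l = 1)
    (hPl : ∀ l : Fin (L + 2), l.val ≤ L → P l = pp q l.val)
    (hP0 : ∀ l : Fin (L + 2), pp q 0 * 2 ^ l.val ≤ P l) (hL : 1 ≤ 4 * 16 ^ 10 * pp q L)
    {ν : S → (X → Fin (L + 2)) → ℝ} (hν0 : ∀ σ τ, 0 ≤ ν σ τ)
    (hνa : ∀ τ, ∑ σ, ν σ τ ≤ ∏ x, P (τ x))
    (hνb : ∀ σ τ, ν σ τ ≤ hh t ^ 66 / Fintype.card S *
      ((∏ x, P (τ x)) * ∏ y, BB q L t (sc y) (τ (φ σ y))))
    (hνc : ∀ σ τ, ν σ τ ≠ 0 → Inv q L sc t (φ σ) τ)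
    (hνd : 1 / 2 + (1 / 2) ^ (t + 1) ≤ ∑ σ, ∑ τ, ν σ τ) :
    ∃ ν' : S → (X → Fin (L + 2)) → ℝ, (∀ σ τ, 0 ≤ ν' σ τ) ∧
      (∀ τ, ∑ σ, ν' σ τ ≤ ∏ x, P (τ x)) ∧
      (∀ σ τ, ν' σ τ ≤ hh (t + 1) ^ 66 / Fintype.card S *
        ((∏ x, P (τ x)) * ∏ y, BB q L (t + 1) (sc y) (τ (φ σ y)))) ∧
      (∀ σ τ, ν' σ τ ≠ 0 → Inv q L sc (t + 1) (φ σ) τ) ∧
      1 / 2 + (1 / 2) ^ (t + 1 + 1) ≤ ∑ σ, ∑ τ, ν' σ τ := by
  classical
  have hP0' : ∀ l, pp q 0 ≤ P l := fun l =>
    le_trans (le_mul_of_one_le_right (pp_pos hq0 0).le (one_le_pow₀ (by norm_num))) (hP0 l)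
  have hP : ∀ l, 0 < P l := fun l => lt_of_lt_of_le (pp_pos hq0 0) (hP0' l)
  have hS : (0 : ℝ) < Fintype.card S := by exact_mod_cast Fintype.card_pos
  have hh0 := hh_pos t
  have hdisj : ∀ y ∈ fin sc t, y ∉ act sc L t := fun y h1 h2 => by
    have := mem_fin.1 h1
    have := mem_act.1 h2
    omega
  have hPlv : ∀ y ∈ act sc L t, P (lv sc L t y) = pp q (sc y - t) := fun y hy => by
    have := mem_act.1 hy
    rw [hPl _ (by rw [lv_val hy]; omega), lv_val hy]
  have hppe : ∀ i, 2 / pp q i = 2 / q * (1 / 4) ^ ee i * (1 / 4) ^ ee i := by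
    intro i
    unfold pp
    rw [mul_assoc, ← mul_pow]
    norm_num
    rw [one_div, inv_pow]
    field_simp
  have hsmU : ∀ y, sm P (fun y l => BB q L t (sc y) l) y ≤ UU L sc t y := by
    intro y
    unfold UU sm
    split_ifs with h1 h2
    · exact sum_BB_le' hq0 hP1 hPl (mem_act.1 h1).1
    · exact sum_BB_le hq0 hP1 hPl _ _
    · rw [mem_act] at h1
      rw [mem_fin] at h2
      simp only [BB_one (show t + L ≤ sc y by omega), mul_one, hP1, le_refl]
  have hU := prod_UU (L := L) (t := t) hsc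
  have hU0 : ∀ y, 0 ≤ UU L sc t y := fun y => le_trans zero_le_one (one_le_UU y)
  obtain ⟨ν', g0, g1, g2, g3, g4⟩ := hop (A := act sc L t) (F := fin sc t) (lev := lv sc L t)
    (P := P) (β := fun y l => BB q L t (sc y) l) hφ hP hP1
    (fun y l => (BB_pos hq0 _ _ _).le)
    (fun y h1 h2 l => by
      rw [mem_act] at h1
      rw [mem_fin] at h2
      exact BB_one (by omega) l)
    hdisj hν0 (by positivity) hνa hνb (fun σ σ' => gd L sc t (φ σ) (φ σ'))
    (δ := (1 / 2) ^ (t + 3)) (by positivity) (q := q) (c := 2 / q) (θ := (hh t ^ 150)⁻¹)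
    (ω := fun y => if y ∈ act sc L t then (1 / 4) ^ ee (sc y - t) else (1 / 4) ^ ee 0)
    (w := fun y => if y ∈ act sc L t then 2 ^ ee (sc y - t) else 1) hq0.le hq (by positivity)
    (fun y => by split_ifs <;> positivity) (fun y => by split_ifs <;> positivity) (by positivity)
    (fun y hy y' hy' h => by
      have h1 := congrArg Fin.val h
      rw [lv_val hy, lv_val hy'] at h1
      rw [if_pos hy, if_pos hy', hPlv y hy, ← h1, hppe])
    (fun y hy y' hy' l => by
      rw [if_neg (hdisj y hy), if_neg (hdisj y' hy'), ← hppe]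
      exact div_le_div_of_nonneg_left (by norm_num) (pp_pos hq0 0) (hP0' l))
    (fun σ σ' h => by
      rw [← Finset.prod_filter, Finset.prod_pow_eq_pow_sum, ← div_eq_inv_mul,
        one_le_div (by positivity), hh_pow]
      exact pow_le_pow_right₀ (by norm_num) (not_le.1 h).le)
    (β' := fun y l => BB q L (t + 1) (sc y) l) (C := hh t ^ 63)
    (fun y l => (BB_pos hq0 _ _ _).le) (by positivity)
    (fun σ σ' τ hν hg => by
      have h1 := pen_bound (hφ σ) (hφ σ') (hνc σ τ hν) hg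
      have h2 : ∀ y', fb (act sc L t) (fin sc t) (lv sc L t) P (fun y l => BB q L t (sc y) l)
          (φ σ) (φ σ') τ y' ≤ UU L sc t y' * (if y' ∈ ov L sc t (φ σ) (φ σ') then
            Gf q L t (sc y') (τ (φ σ' y')) else 1) * BB q L (t + 1) (sc y') (τ (φ σ' y')) := by
        intro y'
        have hb := BB_pos hq0 (t + 1) (sc y') (τ (φ σ' y'))
        unfold fb
        by_cases hA : y' ∈ act sc L t
        · obtain ⟨a1, a2⟩ := mem_act.1 hA
          rw [if_pos hA, mul_assoc, hPlv y' hA]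
          have hp := pp_pos hq0 (sc y' - t)
          refine mul_le_mul (hsmU y') ?_ (by split_ifs <;> positivity) (hU0 y')
          by_cases h3 : ∃ y ∈ act sc L t, φ σ y = φ σ' y' ∧ lv sc L t y = lv sc L t y'
          · rw [if_pos h3, if_pos (mem_ov.2 ⟨hA, h3⟩)]
            exact Gf_key hq0 a1 a2 _
          · rw [if_neg h3, if_neg (fun h => h3 (mem_ov.1 h).2), one_mul]
            split_ifs with h4
            · exact succ_key hq0 a1 a2 (by rw [h4, lv_val hA])
            · exact hb.le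
        · rw [if_neg hA, if_neg (fun h => hA (mem_ov.1 h).1), mul_one,
            BB_not (fun h => hA (mem_act.2 h))]
          unfold UU
          rw [if_neg hA]
          split_ifs with h3
          · exact le_rfl
          · rw [mem_act] at hA
            rw [mem_fin] at h3
            rw [BB_one (by omega), mul_one]
      refine le_trans (Finset.prod_le_prod (fun y' _ => ?_) (fun y' _ => h2 y')) ?_
      · refine le_trans ?_ (fb_le hP (fun y l => (BB_pos hq0 _ _ _).le) (hφ σ) (φ σ') τ y')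
        exact Finset.sum_nonneg (fun z _ => mul_nonneg (kx_nonneg (hφ σ) _ _ _)
          (lin_nonneg hP (fun y l => (BB_pos hq0 _ _ _).le) _ _))
      · rw [Finset.prod_mul_distrib, Finset.prod_mul_distrib, Finset.prod_ite_mem,
          Finset.univ_inter]
        refine mul_le_mul_of_nonneg_right ?_
          (Finset.prod_nonneg (fun y _ => (BB_pos hq0 _ _ _).le))
        rw [show hh t ^ 63 = hh t ^ 3 * hh t ^ 60 by ring]
        exact mul_le_mul hU h1
          (Finset.prod_nonneg (fun y _ => le_trans zero_le_one (one_le_Gf _ _ _))) (by positivity))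
  have hδ : ((1 / 2 : ℝ) ^ (t + 3))⁻¹ ≤ hh t ^ 3 := by
    rw [one_div, inv_pow, inv_inv]
    exact two_pow_le_hh t
  refine ⟨ν', g0, g1, fun σ τ => (g2 σ τ).trans ?_, fun σ' τ hne => ?_, le_trans ?_ g4⟩
  · refine mul_le_mul_of_nonneg_right ?_ (mul_nonneg
      (Finset.prod_nonneg (fun x _ => (hP _).le))
      (Finset.prod_nonneg (fun y _ => (BB_pos hq0 _ _ _).le)))
    rw [hh_succ]
    calc _ ≤ hh t ^ 3 * (hh t ^ 66 / Fintype.card S) * hh t ^ 63 :=
          mul_le_mul_of_nonneg_right (mul_le_mul_of_nonneg_right hδ (by positivity))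
            (by positivity)
      _ = _ := by ring
  · obtain ⟨σ, τ'', a1, a2, a3, a4, a5⟩ := g3 σ' τ hne
    have h1 := pen_bound (hφ σ) (hφ σ') (hνc σ τ a1) a2
    have h2 : ∏ y ∈ act sc L t, Rf q L t (sc y) (τ (φ σ' y)) ≤ hh t ^ 60 := by
      refine le_trans ?_ h1
      have hs : ov L sc t (φ σ) (φ σ') ⊆ act sc L t := fun y hy => (mem_ov.1 hy).1
      rw [← Finset.inter_eq_right.2 hs, ← Finset.prod_ite_mem]
      refine Finset.prod_le_prod (fun y _ => le_trans zero_le_one (one_le_Rf _ _ _))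
        (fun y hy => ?_)
      obtain ⟨b1, b2⟩ := mem_act.1 hy
      split_ifs with h3
      · exact Rf_le_Gf hq0 b1 b2 _
      · rcases a5 y hy with h4 | h4
        · exact Rf_succ hq0 b1 b2 (by rw [h4, lv_val hy])
        · exact absurd (mem_ov.2 ⟨hy, h4⟩) h3
    refine ⟨Or.inr ?_, fun j hj => ?_⟩
    · rw [hh_succ, ← pow_mul]
      refine le_trans ?_ h2
      calc _ = ∏ y ∈ act sc L (t + 1) ∩ act sc L t, Xf q L (t + 1) (sc y) (τ (φ σ' y)) := by
            refine (Finset.prod_subset Finset.inter_subset_left (fun y hy hy' => ?_)).symm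
            have b1 := mem_act.1 hy
            have b2 : ¬ (t ≤ sc y ∧ sc y ≤ t + L) :=
              fun h => hy' (mem_inter.2 ⟨hy, mem_act.2 h⟩)
            exact Xf_new hq0 hL (by omega) _
        _ ≤ ∏ y ∈ act sc L (t + 1) ∩ act sc L t, Rf q L t (sc y) (τ (φ σ' y)) :=
            Finset.prod_le_prod (fun y _ => le_trans zero_le_one (one_le_Xf _ _ _))
              (fun y hy => Xf_le_Rf hq0 (mem_act.1 (mem_inter.1 hy).1).1 _)
        _ ≤ _ := Finset.prod_le_prod_of_subset_of_one_le Finset.inter_subset_right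
            (fun y _ => le_trans zero_le_one (one_le_Rf _ _ _)) (fun y _ _ => one_le_Rf _ _ _)
    · rcases Nat.lt_succ_iff_lt_or_eq.1 hj with hj | hj
      · refine le_trans (le_of_eq (Finset.prod_congr rfl (fun y hy => ?_)))
          ((hνc σ' τ'' a3).2 j hj)
        rw [BB_not (by omega), a4 y (mem_fin.2 (by rw [(mem_filter.1 hy).2]; exact hj))]
      · subst hj
        refine le_trans ?_ h2
        refine le_trans (le_of_eq (Finset.prod_congr rfl (fun y hy => ?_)))
          (Finset.prod_le_prod_of_subset_of_one_le (s := univ.filter (fun y => sc y = j))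
            (fun y hy => mem_act.2 (by rw [(mem_filter.1 hy).2]; omega))
            (fun y _ => le_trans zero_le_one (one_le_Rf _ _ _)) (fun y _ _ => one_le_Rf _ _ _))
        rw [(mem_filter.1 hy).2, Rf, Nat.sub_self]
  · have k1 : ∀ i, 2 * (1 / 2 : ℝ) ^ ee i ≤ (1 / 4) ^ i / 4 := by
      intro i
      unfold ee
      rw [pow_add, pow_mul]
      have h1 : ((1 / 2 : ℝ) ^ 10) ^ i ≤ (1 / 4) ^ i :=
        pow_le_pow_left₀ (by positivity) (by norm_num) i
      have h2 : (1 / 2 : ℝ) ^ 220 ≤ (1 / 2) ^ 3 :=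
        pow_le_pow_of_le_one (by norm_num) (by norm_num) (by norm_num)
      have h3 : (0 : ℝ) ≤ ((1 / 2 : ℝ) ^ 10) ^ i := by positivity
      nlinarith
    have k2 : ∀ n, (1 / 4 : ℝ) ^ n ≤ (1 / 2) ^ n := fun n =>
      pow_le_pow_left₀ (by positivity) (by norm_num) n
    have k3 : ∀ n, (1 / 4 : ℝ) ^ n * 2 ^ n = (1 / 2) ^ n := fun n => by
      rw [← mul_pow]; norm_num
    have k4 : ∀ (f : T → ℝ), (∀ y, 0 ≤ f y) → (∀ y ∈ act sc L t, f y ≤ (1 / 4) ^ (sc y - t) / 4) →
        (∀ y, y ∉ act sc L t → f y ≤ 1) →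
        ∏ y ∈ act sc L t ∪ fin sc t, (1 + f y) ≤ hh t ^ 3 := by
      intro f f0 f1 f2
      refine le_trans ?_ hU
      refine le_trans (Finset.prod_le_prod (fun y _ => by linarith [f0 y]) (fun y hy => ?_))
        (Finset.prod_le_prod_of_subset_of_one_le (Finset.subset_univ _) (fun y _ => hU0 y)
          (fun y _ _ => one_le_UU y))
      unfold UU
      by_cases hA : y ∈ act sc L t
      · rw [if_pos hA]; linarith [f1 y hA]
      · rw [if_neg hA, if_pos (by simpa [hA] using hy)]; linarith [f2 y hA]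
    have k5 := k1 0
    have k6 := k2 (ee 0)
    have k7 : (0 : ℝ) ≤ (1 / 4) ^ ee 0 := by positivity
    have m1 := k4 (fun y => q * (2 / q *
        (if y ∈ act sc L t then (1 / 4) ^ ee (sc y - t) else (1 / 4) ^ ee 0) *
        if y ∈ act sc L t then 2 ^ ee (sc y - t) else 1))
      (fun y => by split_ifs <;> positivity)
      (fun y hy => by
        simp only [hy, if_true]
        refine le_trans (le_of_eq ?_) (k1 (sc y - t))
        rw [← k3]; field_simp)
      (fun y hy => by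
        simp only [hy, if_false]
        have : q * (2 / q * (1 / 4) ^ ee 0 * 1) = 2 * (1 / 4) ^ ee 0 := by field_simp
        rw [this]
        norm_num at k5
        linarith)
    have m2 := k4 (fun y => if y ∈ act sc L t then (1 / 4) ^ ee (sc y - t) else (1 / 4) ^ ee 0)
      (fun y => by split_ifs <;> positivity)
      (fun y hy => by
        simp only [hy, if_true]
        have := k1 (sc y - t)
        have := k2 (ee (sc y - t))
        have : (0 : ℝ) ≤ (1 / 2) ^ ee (sc y - t) := by positivity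
        linarith)
      (fun y hy => by
        simp only [hy, if_false]
        norm_num at k5
        linarith)
    have m3 : ∏ y, sm P (fun y l => BB q L t (sc y) l) y ≤ hh t ^ 3 :=
      le_trans (Finset.prod_le_prod
        (fun y _ => sm_nonneg hP (fun y l => (BB_pos hq0 _ _ _).le) y) (fun y _ => hsmU y)) hU
    have m4 : 0 ≤ ∏ y, sm P (fun y l => BB q L t (sc y) l) y :=
      Finset.prod_nonneg (fun y _ => sm_nonneg hP (fun y l => (BB_pos hq0 _ _ _).le) y)
    have m5 : hh t ^ 66 / Fintype.card S * Fintype.card S = hh t ^ 66 := by field_simp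
    rw [m5]
    have m6 : ((1 / 2 : ℝ) ^ (t + 3))⁻¹ *
        ((hh t ^ 66 * ∏ y, sm P (fun y l => BB q L t (sc y) l) y) ^ 2 * (hh t ^ 150)⁻¹ *
        ((∏ y ∈ act sc L t ∪ fin sc t, (1 + q * (2 / q *
          (if y ∈ act sc L t then (1 / 4) ^ ee (sc y - t) else (1 / 4) ^ ee 0) *
          if y ∈ act sc L t then 2 ^ ee (sc y - t) else 1))) *
        ∏ y ∈ act sc L t ∪ fin sc t, (1 +
          if y ∈ act sc L t then (1 / 4 : ℝ) ^ ee (sc y - t) else (1 / 4) ^ ee 0))) ≤
        hh t ^ 3 * ((hh t ^ 66 * hh t ^ 3) ^ 2 * (hh t ^ 150)⁻¹ * (hh t ^ 3 * hh t ^ 3)) := by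
      have n1 : (0 : ℝ) ≤ ∏ y ∈ act sc L t ∪ fin sc t, (1 +
          if y ∈ act sc L t then (1 / 4 : ℝ) ^ ee (sc y - t) else (1 / 4) ^ ee 0) :=
        Finset.prod_nonneg (fun y _ => by split_ifs <;> positivity)
      have n2 : (0 : ℝ) ≤ ∏ y ∈ act sc L t ∪ fin sc t, (1 + q * (2 / q *
          (if y ∈ act sc L t then (1 / 4) ^ ee (sc y - t) else (1 / 4) ^ ee 0) *
          if y ∈ act sc L t then 2 ^ ee (sc y - t) else 1)) :=
        Finset.prod_nonneg (fun y _ => by split_ifs <;> positivity)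
      refine mul_le_mul hδ (mul_le_mul (mul_le_mul_of_nonneg_right
        (pow_le_pow_left₀ (mul_nonneg (by positivity) m4)
          (mul_le_mul_of_nonneg_left m3 (by positivity)) 2) (by positivity))
        (mul_le_mul m1 m2 n1 (by positivity)) (mul_nonneg n2 n1) (by positivity))
        (mul_nonneg (mul_nonneg (sq_nonneg _) (by positivity)) (mul_nonneg n2 n1)) (by positivity)
    have m7 : hh t ^ 3 * ((hh t ^ 66 * hh t ^ 3) ^ 2 * (hh t ^ 150)⁻¹ * (hh t ^ 3 * hh t ^ 3)) =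
        (hh t ^ 3)⁻¹ := by field_simp
    have m8 : (hh t ^ 3)⁻¹ ≤ (1 / 2 : ℝ) ^ (t + 3) := by
      rw [inv_le_comm₀ (by positivity) (by positivity)]
      exact hδ
    have m9 : (1 / 2 : ℝ) ^ (t + 1) = 4 * (1 / 2) ^ (t + 3) := by ring
    have m10 : (1 / 2 : ℝ) ^ (t + 1 + 1) = 2 * (1 / 2) ^ (t + 3) := by ring
    linarith

lemma tower {φ : S → T → X} (hφ : ∀ σ, Function.Injective (φ σ)) [Nonempty S] (hq0 : 0 < q)
    (hq : ∀ (R : Finset T) (B : Finset X),
      ((univ.filter (fun σ => R.image (φ σ) = B)).card : ℝ) ≤ Fintype.card S * q ^ B.card)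
    (hsc : ∀ j, (univ.filter (fun y => sc y < j)).card ≤ 2 ^ j)
    {P : Fin (L + 2) → ℝ} (hP1 : ∑ l, P l = 1)
    (hPl : ∀ l : Fin (L + 2), l.val ≤ L → P l = pp q l.val)
    (hP0 : ∀ l : Fin (L + 2), pp q 0 * 2 ^ l.val ≤ P l) (hL : 1 ≤ 4 * 16 ^ 10 * pp q L) (t : ℕ) :
    ∃ ν : S → (X → Fin (L + 2)) → ℝ, (∀ σ τ, 0 ≤ ν σ τ) ∧
      (∀ τ, ∑ σ, ν σ τ ≤ ∏ x, P (τ x)) ∧
      (∀ σ τ, ν σ τ ≤ hh t ^ 66 / Fintype.card S *
        ((∏ x, P (τ x)) * ∏ y, BB q L t (sc y) (τ (φ σ y)))) ∧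
      (∀ σ τ, ν σ τ ≠ 0 → Inv q L sc t (φ σ) τ) ∧
      1 / 2 + (1 / 2) ^ (t + 1) ≤ ∑ σ, ∑ τ, ν σ τ := by
  induction t with
  | zero =>
    have hP : ∀ l, 0 ≤ P l := fun l =>
      le_trans (mul_nonneg (pp_pos hq0 0).le (by positivity)) (hP0 l)
    have hS : (0 : ℝ) < Fintype.card S := by exact_mod_cast Fintype.card_pos
    have h0 : ∀ τ : X → Fin (L + 2), 0 ≤ ∏ x, P (τ x) := fun τ =>
      Finset.prod_nonneg (fun x _ => hP _)
    refine ⟨fun _ τ => 1 / Fintype.card S * ∏ x, P (τ x), fun σ τ => ?_, fun τ => ?_,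
      fun σ τ => ?_, fun σ τ _ => ⟨Or.inl rfl, fun j hj => absurd hj (Nat.not_lt_zero j)⟩, ?_⟩
    · exact mul_nonneg (by positivity) (h0 τ)
    · rw [Finset.sum_const, Finset.card_univ, nsmul_eq_mul]
      exact le_of_eq (by field_simp)
    · simp only [BB, Finset.prod_const_one, mul_one]
      refine mul_le_mul_of_nonneg_right ?_ (h0 τ)
      exact div_le_div_of_nonneg_right (one_le_pow₀ (one_le_hh 0)) hS.le
    · simp only [← Finset.mul_sum]
      rw [← Fintype.prod_sum (fun (_ : X) l => P l)]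
      simp only [hP1, Finset.prod_const_one, mul_one]
      rw [Finset.sum_const, Finset.card_univ, nsmul_eq_mul]
      have : 1 / (Fintype.card S : ℝ) * (Fintype.card S * 1) = 1 := by field_simp
      rw [this]; norm_num
  | succ t ih =>
    obtain ⟨ν, a, b, c, d, e⟩ := ih
    exact step hφ hq0 hq hsc hP1 hPl hP0 hL a b c d e

end Vale.Agent.P064
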