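import Mathlib
import Vale.Agent.P064.Tower

/-!
Counting copies inside a sparse template.
-/

namespace Vale.Agent.P064

open Finset

set_option linter.unusedSectionVars false

variable {T X S : Type} [Fintype T] [DecidableEq T] [Fintype X] [DecidableEq X]
  [Fintype S] [DecidableEq S]

lemma exists_scales (W : T → ℝ) (hW : ∀ y, 0 ≤ W y) :
    ∃ sc : T → ℕ, (∀ j, (univ.filter (fun y => sc y < j)).card ≤ 2 ^ j) ∧
      ∀ ρ : T → ℝ, (∀ y, 0 ≤ ρ y) →
        (∀ j, ∑ y ∈ univ.filter (fun y => sc y = j), ρ y ≤ 2 ^ j) →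
        ∑ y, W y * ρ y ≤ 4 * ∑ y, W y := by
  classical
  set rk : T → ℕ := fun y => (univ.filter (fun y' => W y ≤ W y')).card with hrk
  have hrk1 : ∀ y, rk y ≠ 0 := fun y =>
    (Finset.card_pos.2 (⟨y, mem_filter.2 ⟨mem_univ _, le_refl (W y)⟩⟩ :
      (univ.filter (fun y' => W y ≤ W y')).Nonempty)).ne'
  have hmono : ∀ y y', W y ≤ W y' → rk y' ≤ rk y := fun y y' h =>
    Finset.card_le_card (fun z hz => mem_filter.2 ⟨mem_univ _, h.trans (mem_filter.1 hz).2⟩)
  set sc : T → ℕ := fun y => Nat.log 2 (rk y) with hsc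
  have h1 : ∀ j, (univ.filter (fun y => sc y < j)).card < 2 ^ j := by
    intro j
    rcases (univ.filter (fun y => sc y < j)).eq_empty_or_nonempty with h | h
    · rw [h]; simp
    · obtain ⟨y, hy, hmin⟩ := Finset.exists_min_image _ W h
      have h2 : (univ.filter (fun y => sc y < j)).card ≤ rk y :=
        Finset.card_le_card (fun z hz => mem_filter.2 ⟨mem_univ _, hmin z hz⟩)
      have h3 : rk y < 2 ^ j :=
        (Nat.log_lt_iff_lt_pow (by norm_num) (hrk1 y)).1 (mem_filter.1 hy).2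
      omega
  refine ⟨sc, fun j => (h1 j).le, fun ρ hρ0 hρ => ?_⟩
  set m : ℕ → ℝ := fun j => ∑ y' ∈ univ.filter (fun y' => j - 1 ≤ sc y' ∧ sc y' ≤ j), W y'
    with hm
  have hm0 : ∀ j, 0 ≤ m j := fun j => Finset.sum_nonneg (fun y _ => hW y)
  have h2 : ∀ y, W y * 2 ^ sc y ≤ 2 * m (sc y) := by
    intro y
    set A := univ.filter (fun y' => W y ≤ W y') with hA
    set B := univ.filter (fun y' => sc y' < sc y - 1) with hB
    have a1 : 2 ^ sc y ≤ A.card := Nat.pow_log_le_self 2 (hrk1 y)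
    have a2 : 2 * B.card ≤ 2 ^ sc y := by
      have a3 := h1 (sc y - 1)
      rw [← hB] at a3
      rcases Nat.eq_zero_or_pos (sc y) with h | h
      · rw [h] at a3 ⊢
        simp only [Nat.zero_sub, pow_zero] at a3 ⊢
        omega
      · have : 2 ^ sc y = 2 * 2 ^ (sc y - 1) := by
          rw [← pow_succ']; congr 1; omega
        omega
    have a3 : A.card ≤ (A \ B).card + B.card := Finset.card_le_card_sdiff_add_card
    have a4 : (2 : ℝ) ^ sc y ≤ 2 * ((A \ B).card : ℝ) := by
      have : 2 ^ sc y ≤ 2 * (A \ B).card := by omega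
      exact_mod_cast this
    have a5 : W y * ((A \ B).card : ℝ) ≤ m (sc y) := by
      rw [mul_comm, ← nsmul_eq_mul, ← Finset.sum_const]
      refine le_trans (Finset.sum_le_sum (fun z hz => (mem_filter.1 (mem_sdiff.1 hz).1).2))
        (Finset.sum_le_sum_of_subset_of_nonneg (fun z hz => ?_) (fun z _ _ => hW z))
      obtain ⟨b1, b2⟩ := mem_sdiff.1 hz
      refine mem_filter.2 ⟨mem_univ _, ?_, Nat.log_mono_right (hmono _ _ (mem_filter.1 b1).2)⟩
      by_contra b3
      exact b2 (mem_filter.2 ⟨mem_univ _, not_le.1 b3⟩)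
    nlinarith [hW y]
  set J := univ.sup sc + 1 with hJ
  have hJ' : ∀ y, sc y ∈ range J := fun y =>
    mem_range.2 (Nat.lt_succ_of_le (Finset.le_sup (f := sc) (mem_univ y)))
  rw [← Finset.sum_fiberwise_of_maps_to (s := univ) (t := range J) (g := sc) (fun y _ => hJ' y)]
  have h3 : ∀ j ∈ range J, ∑ y ∈ univ.filter (fun y => sc y = j), W y * ρ y ≤ 2 * m j := by
    intro j _
    have hp : (0 : ℝ) < 2 ^ j := by positivity
    calc _ ≤ ∑ y ∈ univ.filter (fun y => sc y = j), (2 * m j / 2 ^ j) * ρ y := by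
          refine Finset.sum_le_sum (fun y hy => mul_le_mul_of_nonneg_right ?_ (hρ0 y))
          rw [le_div_iff₀ hp, ← (mem_filter.1 hy).2]
          exact h2 y
      _ ≤ (2 * m j / 2 ^ j) * 2 ^ j := by
          rw [← Finset.mul_sum]
          exact mul_le_mul_of_nonneg_left (hρ j) (by have := hm0 j; positivity)
      _ = _ := by field_simp
  refine (Finset.sum_le_sum h3).trans ?_
  simp only [hm, Finset.sum_filter]
  have e4 : 4 * ∑ y, W y = 2 * ∑ y, 2 * W y := by rw [← Finset.mul_sum]; ring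
  rw [← Finset.mul_sum, Finset.sum_comm, e4]
  refine mul_le_mul_of_nonneg_left (Finset.sum_le_sum (fun y _ => ?_)) (zero_le_two (α := ℝ))
  rw [← Finset.sum_filter, Finset.sum_const, nsmul_eq_mul]
  refine mul_le_mul_of_nonneg_right ?_ (hW y)
  have : ((range J).filter (fun j => j - 1 ≤ sc y ∧ sc y ≤ j)).card ≤ 2 := by
    refine le_trans (Finset.card_le_card (t := {sc y, sc y + 1}) (fun j hj => ?_))
      Finset.card_le_two
    have := (mem_filter.1 hj).2
    simp only [mem_insert, mem_singleton]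
    omega
  exact_mod_cast this

/-- the universal constant -/
noncomputable def KK : ℝ := 8 * 16 ^ ee 0 * (2 ^ 120) ^ 4

lemma KK_pos : 0 < KK := by unfold KK; positivity

theorem count_le {φ : S → T → X} (hφ : ∀ σ, Function.Injective (φ σ)) [Nonempty S] {q : ℝ}
    (hq0 : 0 < q)
    (hq : ∀ (R : Finset T) (B : Finset X),
      ((univ.filter (fun σ => R.image (φ σ) = B)).card : ℝ) ≤ Fintype.card S * q ^ B.card)
    (CT : Finset (Finset T)) (CX : Finset (Finset X)) (k : ℕ) (hT : ∀ R ∈ CT, R.card = k)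
    (himg : ∀ σ, ∀ R ∈ CT, R.image (φ σ) ∈ CX) :
    (CT.card : ℝ) ≤ 2 * CX.card * (KK * q) ^ k := by
  classical
  have hp0 := pp_pos hq0 0
  have hK : KK * q = 8 * pp q 0 * (2 ^ 120) ^ 4 := by unfold KK pp; ring
  have hinj : ∀ σ, Set.InjOn (fun R : Finset T => R.image (φ σ)) CT :=
    fun σ => (Finset.image_injective (hφ σ)).injOn
  by_cases h0 : pp q 0 ≤ 1 / 4
  swap
  · obtain ⟨σ⟩ := ‹Nonempty S›
    have h1 : CT.card ≤ CX.card := Finset.card_le_card_of_injOn _ (fun R hR => himg σ R hR)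
      (hinj σ)
    have h2 : (CT.card : ℝ) ≤ CX.card := by exact_mod_cast h1
    have h3 : 1 ≤ KK * q := by
      rw [hK]
      exact one_le_mul_of_one_le_of_one_le (by linarith)
        (one_le_pow₀ (one_le_pow₀ (by norm_num)))
    have h4 : 1 ≤ (KK * q) ^ k := one_le_pow₀ h3
    have h5 : (0 : ℝ) ≤ CX.card := by positivity
    nlinarith
  obtain ⟨L, P, hP1, hPl, hP0, hL⟩ := exists_levels hq0 h0
  have hP : ∀ l, 0 < P l := fun l => lt_of_lt_of_le (by positivity) (hP0 l)
  set W : T → ℝ := fun y => ∑ R ∈ CT, if y ∈ R then 1 else 0 with hW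
  have hWs : ∀ ρ : T → ℝ, ∑ y, W y * ρ y = ∑ R ∈ CT, ∑ y ∈ R, ρ y := by
    intro ρ
    simp only [hW, Finset.sum_mul]
    rw [Finset.sum_comm]
    refine Finset.sum_congr rfl (fun R _ => ?_)
    simp only [ite_mul, one_mul, zero_mul]
    rw [Finset.sum_ite_mem, Finset.univ_inter]
  have hWt : ∑ y, W y = CT.card * k := by
    have := hWs (fun _ => 1)
    simp only [mul_one, Finset.sum_const, nsmul_eq_mul] at this
    rw [this, Finset.sum_congr rfl (g := fun _ => (k : ℝ)) (fun R hR => by rw [hT R hR])]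
    simp
  obtain ⟨sc, hsc, hρ⟩ := exists_scales W
    (fun y => Finset.sum_nonneg (fun R _ => by split_ifs <;> norm_num))
  set J := univ.sup sc + 1 with hJ
  obtain ⟨ν, n0, n1, -, n3, n4⟩ := tower hφ hq0 hq hsc hP1 hPl hP0 hL J
  set a : Fin (L + 2) → ℝ := fun l => pp q 0 / (2 * P l ^ 2) with ha
  have ha0 : ∀ l, 0 ≤ a l := fun l => by have := hP l; simp only [ha]; positivity
  have ha1 : ∑ l, P l * a l ≤ 1 := by
    have h1 : ∀ l : Fin (L + 2), P l * a l ≤ (1 / 2 : ℝ) ^ l.val / 2 := by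
      intro l
      have h2 := hP l
      have h3 := hP0 l
      have h4 : P l * a l = pp q 0 / P l / 2 := by simp only [ha]; field_simp
      rw [h4]
      refine div_le_div_of_nonneg_right ?_ (by norm_num)
      rw [one_div, inv_pow, div_le_iff₀ h2, ← div_eq_inv_mul, le_div_iff₀ (by positivity)]
      exact h3
    refine (Finset.sum_le_sum (fun l _ => h1 l)).trans ?_
    rw [← Finset.sum_div, Fin.sum_univ_eq_sum_range (fun i => (1 / 2 : ℝ) ^ i)]
    have h6 : ∑ i ∈ range (L + 2), (1 / 2 : ℝ) ^ i ≤ 2 := by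
      simpa using sum_geometric_two_le (L + 2)
    linarith
  set Y : (X → Fin (L + 2)) → ℝ := fun τ => ∑ B ∈ CX, ∏ x ∈ B, a (τ x) with hY
  have hY0 : ∀ τ, 0 ≤ Y τ := fun τ =>
    Finset.sum_nonneg (fun B _ => Finset.prod_nonneg (fun x _ => ha0 _))
  have hY1 : ∑ τ, (∏ x, P (τ x)) * Y τ ≤ CX.card := by
    simp only [hY, Finset.mul_sum]
    rw [Finset.sum_comm, Finset.card_eq_sum_ones]
    push_cast
    refine Finset.sum_le_sum (fun B _ => ?_)
    have h1 : ∀ τ : X → Fin (L + 2), (∏ x, P (τ x)) * ∏ x ∈ B, a (τ x) =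
        ∏ x, (P (τ x) * if x ∈ B then a (τ x) else 1) := by
      intro τ
      rw [Finset.prod_mul_distrib, Finset.prod_ite_mem, Finset.univ_inter]
    simp only [h1]
    rw [← Fintype.prod_sum (fun x l => P l * if x ∈ B then a l else 1)]
    refine Finset.prod_le_one (fun x _ => Finset.sum_nonneg (fun l _ =>
      mul_nonneg (hP l).le (by split_ifs; exacts [ha0 l, zero_le_one]))) (fun x _ => ?_)
    by_cases hx : x ∈ B
    · simpa only [hx, if_true] using ha1
    · simp only [hx, if_false, mul_one, hP1, le_refl]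
  have hY2 : ∀ σ τ, ν σ τ ≠ 0 → CT.card * ((KK * q) ^ k)⁻¹ ≤ Y τ := by
    intro σ τ hν
    have hI := (n3 σ τ hν).2
    set r : T → ℝ := fun y => max 1 (P (τ (φ σ y)) / (2 * pp q 0)) with hr
    have hr1 : ∀ y, 1 ≤ r y := fun y => le_max_left _ _
    have hl2 : 0 < Real.log 2 := Real.log_pos (by norm_num)
    set ρ : T → ℝ := fun y => Real.log (r y) / (60 * Real.log 2) with hρd
    have hρ0 : ∀ y, 0 ≤ ρ y := fun y => div_nonneg (Real.log_nonneg (hr1 y)) (by positivity)
    have h1 : ∀ j, ∑ y ∈ univ.filter (fun y => sc y = j), ρ y ≤ 2 ^ j := by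
      intro j
      by_cases hj : j < J
      · simp only [hρd]
        rw [← Finset.sum_div, div_le_iff₀ (by positivity),
          ← Real.log_prod (fun y _ => (lt_of_lt_of_le one_pos (hr1 y)).ne')]
        have h2 : ∏ y ∈ univ.filter (fun y => sc y = j), r y ≤ hh j ^ 60 := by
          refine le_trans (Finset.prod_le_prod (fun y _ => le_trans zero_le_one (hr1 y))
            (fun y _ => max_le_max le_rfl ?_)) (hI j hj)
          have h3 := BB_pos (L := L) hq0 J j (τ (φ σ y))
          have h4 : P (τ (φ σ y)) * BB q L J j (τ (φ σ y)) ≤ 2 :=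
            le_trans (Finset.single_le_sum (f := fun l => P l * BB q L J j l)
              (fun l _ => mul_nonneg (hP l).le (BB_pos hq0 _ _ _).le) (mem_univ _))
              (sum_BB_le hq0 hP1 hPl J j)
          rw [div_le_div_iff₀ (by positivity) (by positivity)]
          nlinarith
        refine (Real.log_le_log (Finset.prod_pos
          (fun y _ => lt_of_lt_of_le one_pos (hr1 y))) h2).trans (le_of_eq ?_)
        rw [hh_pow, Real.log_pow]
        push_cast
        ring
      · rw [Finset.sum_eq_zero]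
        · positivity
        · intro y hy
          exfalso
          have h2 := Finset.le_sup (f := sc) (mem_univ y)
          have h3 := (mem_filter.1 hy).2
          omega
    have h2 := hρ ρ hρ0 h1
    rw [hWs, hWt] at h2
    set c := 120 * Real.log 2 with hc
    have hc0 : 0 < c := by positivity
    have h3 : ∀ y, (KK * q)⁻¹ * Real.exp (c * (4 - ρ y)) ≤ a (τ (φ σ y)) := by
      intro y
      have h4 : Real.exp (c * (4 - ρ y)) = (2 ^ 120) ^ 4 / r y ^ 2 := by
        have e1 : c * ρ y = ((2 : ℕ) : ℝ) * Real.log (r y) := by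
          simp only [hc, hρd]; push_cast; field_simp; ring
        have e2 : c * 4 = ((4 : ℕ) : ℝ) * (((120 : ℕ) : ℝ) * Real.log 2) := by
          simp only [hc]; push_cast; ring
        rw [mul_sub, Real.exp_sub, e1, e2, Real.exp_nat_mul, Real.exp_nat_mul, Real.exp_nat_mul,
          Real.exp_log (by norm_num), Real.exp_log (lt_of_lt_of_le one_pos (hr1 y))]
      have h5 : P (τ (φ σ y)) ≤ 2 * pp q 0 * r y := by
        have : P (τ (φ σ y)) / (2 * pp q 0) ≤ r y := le_max_right _ _
        rwa [div_le_iff₀' (by positivity)] at this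
      have h6 := hP (τ (φ σ y))
      have h7 := lt_of_lt_of_le one_pos (hr1 y)
      rw [h4, hK]
      generalize ((2 : ℝ) ^ 120) ^ 4 = Z at *
      by_cases hZ : Z = 0
      · rw [hZ]; simpa using ha0 _
      have h8 : (8 * pp q 0 * Z)⁻¹ * (Z / r y ^ 2) = pp q 0 / (2 * (2 * pp q 0 * r y) ^ 2) := by
        field_simp
        norm_num
      rw [h8]
      exact div_le_div_of_nonneg_left hp0.le (by positivity)
        (mul_le_mul_of_nonneg_left (pow_le_pow_left₀ h6.le h5 2) (by norm_num))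
    have hKq : 0 < KK * q := mul_pos KK_pos hq0
    have h4 : ∀ R ∈ CT, ((KK * q) ^ k)⁻¹ * (1 + c * (4 * k - ∑ y ∈ R, ρ y)) ≤
        ∏ x ∈ R.image (φ σ), a (τ x) := by
      intro R hR
      rw [Finset.prod_image (fun y _ y' _ h => hφ σ h)]
      refine le_trans ?_ (Finset.prod_le_prod (fun y _ => by positivity) (fun y _ => h3 y))
      rw [Finset.prod_mul_distrib, Finset.prod_const, hT R hR, inv_pow, ← Real.exp_sum,
        ← Finset.mul_sum, Finset.sum_sub_distrib, Finset.sum_const, hT R hR, nsmul_eq_mul,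
        mul_comm (k : ℝ) 4]
      refine mul_le_mul_of_nonneg_left ?_ (by positivity)
      linarith [Real.add_one_le_exp (c * (4 * k - ∑ y ∈ R, ρ y))]
    have h5 : ∑ R ∈ CT, ∏ x ∈ R.image (φ σ), a (τ x) ≤ Y τ := by
      rw [← Finset.sum_image (f := fun B => ∏ x ∈ B, a (τ x)) (hinj σ)]
      refine Finset.sum_le_sum_of_subset_of_nonneg (fun B hB => ?_)
        (fun B _ _ => Finset.prod_nonneg (fun x _ => ha0 _))
      obtain ⟨R, hR, rfl⟩ := mem_image.1 hB
      exact himg σ R hR
    refine le_trans ?_ ((Finset.sum_le_sum h4).trans h5)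
    rw [← Finset.mul_sum, mul_comm]
    refine mul_le_mul_of_nonneg_left ?_ (by positivity)
    rw [Finset.sum_add_distrib, ← Finset.mul_sum, Finset.sum_sub_distrib, Finset.sum_const,
      Finset.sum_const, nsmul_eq_mul, nsmul_eq_mul, mul_one]
    nlinarith
  have hKq : 0 < (KK * q) ^ k := pow_pos (mul_pos KK_pos hq0) k
  have h5 : (∑ σ, ∑ τ, ν σ τ) * (CT.card * ((KK * q) ^ k)⁻¹) ≤ CX.card := by
    refine le_trans ?_ hY1
    rw [Finset.sum_comm, Finset.sum_mul]
    refine Finset.sum_le_sum (fun τ _ => ?_)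
    refine le_trans ?_ (mul_le_mul_of_nonneg_right (n1 τ) (hY0 τ))
    rw [Finset.sum_mul, Finset.sum_mul]
    refine Finset.sum_le_sum (fun σ _ => ?_)
    by_cases hν : ν σ τ = 0
    · simp [hν]
    · exact mul_le_mul_of_nonneg_left (hY2 σ τ hν) (n0 σ τ)
  have h6 : (1 / 2 : ℝ) ≤ ∑ σ, ∑ τ, ν σ τ := by
    have : (0 : ℝ) ≤ (1 / 2) ^ (J + 1) := by positivity
    linarith
  have h7 : (1 / 2 : ℝ) * (CT.card * ((KK * q) ^ k)⁻¹) ≤ CX.card :=
    le_trans (mul_le_mul_of_nonneg_right h6 (by positivity)) h5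
  rw [← div_eq_mul_inv, ← mul_div_assoc, div_le_iff₀ hKq] at h7
  linarith

end Vale.Agent.P064
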