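import Mathlib

/-!
The threshold and the subgraph expectation threshold for containing a copy of `H` in `G(n,p)`.
`SimpleGraph.binomialRandom (Fin n) p` is the law of `G(n,p)` and `G.copyCount F` is the number
`N(G,F)` of subgraphs of `G` isomorphic to `F`.
-/

namespace Vale.Agent.P064

open MeasureTheory

/-- `p_c(n,H)`: the least `p ∈ [0,1]` with `Pr(N(G(n,p),H) > 0) ≥ 1/2`. -/
noncomputable def pc (n : ℕ) {V : Type} (H : SimpleGraph V) : ℝ :=
  sInf {p : ℝ | ∃ hp : p ∈ unitInterval,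
    1 / 2 ≤ (SimpleGraph.binomialRandom (Fin n) ⟨p, hp⟩).real {G | 0 < G.copyCount H}}

/-- `p_E(n,H)`: the least `p ∈ [0,1]` with `E N(G(n,p),F) ≥ 1/2` for every subgraph `F` of `H`. -/
noncomputable def pE (n : ℕ) {V : Type} (H : SimpleGraph V) : ℝ :=
  sInf {p : ℝ | ∃ hp : p ∈ unitInterval, ∀ F : H.Subgraph,
    1 / 2 ≤ ∫ G, (G.copyCount F.coe : ℝ) ∂(SimpleGraph.binomialRandom (Fin n) ⟨p, hp⟩)}

end Vale.Agent.P064
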