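import Mathlib

/-!
The Park-Pham theorem (first Kahn-Kalai conjecture) via minimal fragments.
-/

namespace Vale.Agent.P064

open Finset

set_option linter.unusedSectionVars false

variable {X : Type} [Fintype X] [DecidableEq X]

/-- product measure on subsets -/
noncomputable def mu (p : ℝ) (W : Finset X) : ℝ := ∏ x, if x ∈ W then p else 1 - p

lemma sum_prod_ite (f g : X → ℝ) :
    ∑ W : Finset X, ∏ x, (if x ∈ W then f x else g x) = ∏ x, (f x + g x) := by
  rw [Fintype.prod_add]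
  refine Finset.sum_congr rfl (fun W _ => ?_)
  rw [Finset.prod_ite]
  congr 2 <;> ext x <;> simp

lemma mu_nonneg {p : ℝ} (h0 : 0 ≤ p) (h1 : p ≤ 1) (W : Finset X) : 0 ≤ mu p W :=
  Finset.prod_nonneg (fun x _ => by split_ifs <;> linarith)

lemma sum_mu (p : ℝ) : ∑ W : Finset X, mu p W = 1 := by
  unfold mu
  rw [sum_prod_ite (fun _ => p) (fun _ => 1 - p)]
  simp

lemma mu_eq (p : ℝ) (W : Finset X) :
    mu p W = p ^ W.card * (1 - p) ^ (Fintype.card X - W.card) := by
  unfold mu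
  rw [Finset.prod_ite, Finset.prod_const, Finset.prod_const, ← Finset.card_compl]
  congr 3 <;> ext x <;> simp

lemma sum_mu_sup (p : ℝ) (A : Finset X) :
    ∑ W : Finset X, mu p W * (if A ⊆ W then 1 else 0) = p ^ A.card := by
  have h1 : ∀ W : Finset X, mu p W * (if A ⊆ W then 1 else 0) =
      ∏ x, (if x ∈ W then p else (if x ∈ A then 0 else 1 - p)) := by
    intro W
    split_ifs with h
    · rw [mul_one]
      refine Finset.prod_congr rfl (fun x _ => ?_)
      by_cases hx : x ∈ W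
      · simp only [hx, if_true]
      · simp only [hx, if_false, (show x ∉ A from fun h1 => hx (h h1))]
    · obtain ⟨x, hx, hx'⟩ := Finset.not_subset.1 h
      rw [mul_zero, Finset.prod_eq_zero (mem_univ x)]
      simp only [hx, hx', if_true, if_false]
  simp only [h1]
  rw [sum_prod_ite (fun _ => p) (fun x => if x ∈ A then 0 else 1 - p)]
  have h2 : ∀ x, (p + if x ∈ A then 0 else 1 - p) = if x ∈ A then p else 1 := by
    intro x; split_ifs <;> ring
  simp only [h2]
  rw [Finset.prod_ite_mem, Finset.univ_inter, Finset.prod_const]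

lemma mu_union (a b : ℝ) (f : Finset X → ℝ) :
    ∑ W1 : Finset X, mu a W1 * ∑ W2 : Finset X, mu b W2 * f (W1 ∪ W2) =
      ∑ W : Finset X, mu (a + b - a * b) W * f W := by
  have key : ∀ W : Finset X, ∑ W1 : Finset X, mu a W1 * ∑ W2 : Finset X,
      mu b W2 * (if W1 ∪ W2 = W then 1 else 0) = mu (a + b - a * b) W := by
    intro W
    have h1 : ∀ W1 W2 : Finset X, mu b W2 * (if W1 ∪ W2 = W then 1 else 0) =
        ∏ x, (if x ∈ W2 then (if x ∈ W then b else 0) else
          (if (x ∈ W1 ↔ x ∈ W) then 1 - b else 0)) := by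
      intro W1 W2
      split_ifs with h
      · rw [mul_one, ← h]
        refine Finset.prod_congr rfl (fun x _ => ?_)
        by_cases hx : x ∈ W2 <;> simp [hx]
      · rw [mul_zero]
        have : ∃ x, ¬ (x ∈ W1 ∪ W2 ↔ x ∈ W) := by
          by_contra h2
          push Not at h2
          exact h (Finset.ext h2)
        obtain ⟨x, hx⟩ := this
        rw [Finset.prod_eq_zero (mem_univ x)]
        by_cases hx2 : x ∈ W2
        · have : x ∉ W := fun h3 => hx (by simp [hx2, h3])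
          simp [hx2, this]
        · have : ¬ (x ∈ W1 ↔ x ∈ W) := fun h3 => hx (by simp [hx2, h3])
          simp [hx2, this]
    have h2 : ∀ W1 : Finset X, mu a W1 * ∑ W2 : Finset X,
        mu b W2 * (if W1 ∪ W2 = W then 1 else 0) =
        ∏ x, (if x ∈ W1 then (if x ∈ W then a else 0) else
          (if x ∈ W then (1 - a) * b else (1 - a) * (1 - b))) := by
      intro W1
      simp only [h1]
      rw [sum_prod_ite (fun x => if x ∈ W then b else 0)
        (fun x => if (x ∈ W1 ↔ x ∈ W) then 1 - b else 0), mu, ← Finset.prod_mul_distrib]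
      refine Finset.prod_congr rfl (fun x _ => ?_)
      by_cases hx : x ∈ W1 <;> by_cases hx' : x ∈ W <;> simp [hx, hx']
    simp only [h2]
    rw [sum_prod_ite (fun x => if x ∈ W then a else 0)
      (fun x => if x ∈ W then (1 - a) * b else (1 - a) * (1 - b)), mu]
    refine Finset.prod_congr rfl (fun x _ => ?_)
    split_ifs <;> ring
  simp only [← key, Finset.sum_mul, Finset.mul_sum]
  rw [Finset.sum_comm (s := univ) (t := univ)
    (f := fun W W1 => ∑ W2, mu a W1 * (mu b W2 * if W1 ∪ W2 = W then 1 else 0) * f W)]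
  refine Finset.sum_congr rfl (fun W1 _ => ?_)
  rw [Finset.sum_comm]
  refine Finset.sum_congr rfl (fun W2 _ => ?_)
  simp only [mul_ite, mul_one, mul_zero, ite_mul, zero_mul]
  rw [Finset.sum_ite_eq]
  simp [mul_assoc]

open Classical in
/-- minimal fragments -/
noncomputable def frag (F : Finset (Finset X)) (W : Finset X) : Finset (Finset X) :=
  univ.filter (fun T => (∃ S ∈ F, T = S \ W) ∧ ∀ S' ∈ F, S' ⊆ W ∪ T → T.card ≤ (S' \ W).card)

lemma mem_frag {F : Finset (Finset X)} {W T : Finset X} : T ∈ frag F W ↔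
    (∃ S ∈ F, T = S \ W) ∧ ∀ S' ∈ F, S' ⊆ W ∪ T → T.card ≤ (S' \ W).card := by
  simp only [frag, mem_filter, mem_univ, true_and]

lemma exists_frag {F : Finset (Finset X)} (W : Finset X) {S : Finset X} (hS : S ∈ F) :
    ∃ T ∈ frag F W, T ⊆ S := by
  obtain ⟨S1, h1, h2⟩ := Finset.exists_min_image (F.filter (fun S1 => S1 ⊆ W ∪ S))
    (fun S1 => (S1 \ W).card) ⟨S, mem_filter.2 ⟨hS, Finset.subset_union_right⟩⟩
  obtain ⟨h3, h4⟩ := mem_filter.1 h1
  have h5 : S1 \ W ⊆ S := by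
    intro x hx
    obtain ⟨a, b⟩ := mem_sdiff.1 hx
    exact (mem_union.1 (h4 a)).resolve_left b
  refine ⟨S1 \ W, mem_frag.2 ⟨⟨S1, h3, rfl⟩, fun S' h6 h7 => h2 S' (mem_filter.2 ⟨h6, ?_⟩)⟩, h5⟩
  exact h7.trans (Finset.union_subset_union_right h5)

lemma frag_cost {F : Finset (Finset X)} {m : ℕ} (hF : ∀ S ∈ F, S.card < 2 ^ (m + 1)) {p q : ℝ}
    (hq : 0 ≤ q) (hpq : 16 * q ≤ p) (hp1 : p ≤ 1) :
    ∑ W : Finset X, mu p W * ∑ T ∈ (frag F W).filter (fun T => 2 ^ m ≤ T.card), q ^ T.card ≤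
      (1 / 4) ^ (2 ^ m) := by
  classical
  have hp0 : 0 ≤ p := by linarith
  have hdec : ∀ Z : Finset X, ∃ V : Finset X, V.card < 2 ^ (m + 1) ∧
      ∀ W T, T ∈ frag F W → W ∪ T = Z → T ⊆ V := by
    intro Z
    by_cases h : ∃ S ∈ F, S ⊆ Z
    · obtain ⟨S, h1, h2⟩ := h
      refine ⟨S, hF S h1, fun W T hT hZ => ?_⟩
      have h3 := (mem_frag.1 hT).2 S h1 (hZ ▸ h2)
      have h4 : S \ W ⊆ T := by
        intro x hx
        obtain ⟨a, b⟩ := mem_sdiff.1 hx
        exact (mem_union.1 (hZ ▸ h2 a)).resolve_left b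
      rw [← Finset.eq_of_subset_of_card_le h4 h3]
      exact Finset.sdiff_subset
    · refine ⟨∅, by simp, fun W T hT hZ => ?_⟩
      obtain ⟨S, h1, rfl⟩ := (mem_frag.1 hT).1
      exact absurd ⟨S, h1, by rw [← hZ]; intro x hx; by_cases hw : x ∈ W <;> simp [hw, hx]⟩ h
  choose V hV1 hV2 using hdec
  have hdisj : ∀ W T, T ∈ frag F W → Disjoint W T := by
    intro W T hT
    obtain ⟨S, _, rfl⟩ := (mem_frag.1 hT).1
    exact Finset.disjoint_sdiff
  set ε : ℝ := (1 / 16) ^ (2 ^ m) with hε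
  have hε0 : 0 ≤ ε := by positivity
  set Pairs : Finset (Finset X × Finset X) :=
    univ.filter (fun a => a.2 ∈ (frag F a.1).filter (fun T => 2 ^ m ≤ T.card)) with hPairs
  have h1 : ∑ W : Finset X, mu p W * ∑ T ∈ (frag F W).filter (fun T => 2 ^ m ≤ T.card),
      q ^ T.card = ∑ a ∈ Pairs, mu p a.1 * q ^ a.2.card := by
    rw [hPairs, Finset.sum_filter, Fintype.sum_prod_type]
    refine Finset.sum_congr rfl (fun W _ => ?_)
    dsimp only
    rw [Finset.sum_ite_mem, Finset.univ_inter, Finset.mul_sum]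
  have h2 : ∀ a ∈ Pairs, mu p a.1 * q ^ a.2.card ≤ mu p (a.1 ∪ a.2) * ε := by
    rintro ⟨W, T⟩ ha
    obtain ⟨h3, h4⟩ := mem_filter.1 (mem_filter.1 ha).2
    dsimp only at h3 h4 ⊢
    have h5 : mu p W * p ^ T.card ≤ mu p (W ∪ T) := by
      have h6 : p ^ T.card = ∏ x, if x ∈ T then p else 1 := by
        rw [Finset.prod_ite_mem, Finset.univ_inter, Finset.prod_const]
      rw [h6, mu, mu, ← Finset.prod_mul_distrib]
      refine Finset.prod_le_prod (fun x _ => ?_) (fun x _ => ?_)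
      · split_ifs <;> nlinarith
      · by_cases hx : x ∈ W <;> by_cases hx' : x ∈ T
        · exact absurd hx' (Finset.disjoint_left.1 (hdisj W T h3) hx)
        · simp [hx, hx']
        · simp only [hx, hx', mem_union, or_true, if_true, if_false]; nlinarith
        · simp [hx, hx']
    have h6 : q ^ T.card ≤ p ^ T.card * ε := by
      calc q ^ T.card ≤ (p * (1 / 16)) ^ T.card := pow_le_pow_left₀ hq (by linarith) _
        _ = p ^ T.card * (1 / 16) ^ T.card := mul_pow _ _ _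
        _ ≤ _ := mul_le_mul_of_nonneg_left
          (pow_le_pow_of_le_one (by norm_num) (by norm_num) h4) (by positivity)
    calc _ ≤ mu p W * (p ^ T.card * ε) := mul_le_mul_of_nonneg_left h6 (mu_nonneg hp0 hp1 W)
      _ = mu p W * p ^ T.card * ε := by ring
      _ ≤ _ := mul_le_mul_of_nonneg_right h5 hε0
  have h3 : Set.InjOn (fun a : Finset X × Finset X => (a.1 ∪ a.2, a.2)) Pairs := by
    rintro ⟨W, T⟩ ha ⟨W', T'⟩ ha' h
    simp only [Prod.mk.injEq] at h
    obtain ⟨h4, rfl⟩ := h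
    have h5 := hdisj W T (mem_filter.1 (mem_filter.1 (mem_coe.1 ha)).2).1
    have h6 := hdisj W' T (mem_filter.1 (mem_filter.1 (mem_coe.1 ha')).2).1
    rw [← Finset.union_sdiff_cancel_right h5, h4, Finset.union_sdiff_cancel_right h6]
  have h4 : ∑ a ∈ Pairs, mu p (a.1 ∪ a.2) * ε ≤
      ∑ b ∈ univ.filter (fun b : Finset X × Finset X => b.2 ∈ (V b.1).powerset), mu p b.1 * ε := by
    rw [← Finset.sum_image (f := fun b : Finset X × Finset X => mu p b.1 * ε) h3]
    refine Finset.sum_le_sum_of_subset_of_nonneg (fun b hb => ?_)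
      (fun b _ _ => mul_nonneg (mu_nonneg hp0 hp1 _) hε0)
    obtain ⟨⟨W, T⟩, ha, rfl⟩ := mem_image.1 hb
    exact mem_filter.2 ⟨mem_univ _, mem_powerset.2
      (hV2 _ W T (mem_filter.1 (mem_filter.1 ha).2).1 rfl)⟩
  rw [h1]
  refine ((Finset.sum_le_sum h2).trans h4).trans ?_
  rw [Finset.sum_filter, Fintype.sum_prod_type]
  calc _ ≤ ∑ Z : Finset X, mu p Z * (1 / 4) ^ (2 ^ m) := by
        refine Finset.sum_le_sum (fun Z _ => ?_)
        dsimp only
        rw [Finset.sum_ite_mem, Finset.univ_inter, Finset.sum_const, Finset.card_powerset,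
          nsmul_eq_mul, mul_left_comm]
        refine mul_le_mul_of_nonneg_left ?_ (mu_nonneg hp0 hp1 Z)
        have h5 : ((2 ^ (V Z).card : ℕ) : ℝ) ≤ 4 ^ (2 ^ m) := by
          push_cast
          rw [show (4 : ℝ) = 2 ^ 2 by norm_num, ← pow_mul]
          refine pow_le_pow_right₀ (by norm_num) ?_
          have := hV1 Z
          rw [pow_succ] at this
          omega
        refine (mul_le_mul_of_nonneg_right h5 hε0).trans (le_of_eq ?_)
        rw [hε, ← mul_pow]; norm_num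
    _ = _ := by rw [← Finset.sum_mul, sum_mu, one_mul]

lemma pp_ind {p q : ℝ} (hq : 0 ≤ q) (hpq : 16 * q ≤ p) (hp1 : p ≤ 1) (m : ℕ) :
    ∀ (F : Finset (Finset X)) (c : ℝ), (∀ S ∈ F, S.card < 2 ^ m) →
      (∀ G : Finset (Finset X), (∀ S ∈ F, ∃ T ∈ G, T ⊆ S) → c ≤ ∑ T ∈ G, q ^ T.card) →
      c * ∑ W : Finset X, mu (1 - (1 - p) ^ m) W * (if ∃ S ∈ F, S ⊆ W then 0 else 1) ≤
        ∑ i ∈ range m, (1 / 4 : ℝ) ^ (2 ^ i) := by
  classical
  have hp0 : 0 ≤ p := by linarith
  have hm0 : ∀ m, 0 ≤ 1 - (1 - p) ^ m := fun m => by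
    have : (1 - p) ^ m ≤ 1 := pow_le_one₀ (by linarith) (by linarith)
    linarith
  have hm1 : ∀ m, 1 - (1 - p) ^ m ≤ 1 := fun m => by
    have : 0 ≤ (1 - p) ^ m := pow_nonneg (by linarith) m
    linarith
  have hf0 : ∀ m (F : Finset (Finset X)), 0 ≤ ∑ W : Finset X,
      mu (1 - (1 - p) ^ m) W * (if ∃ S ∈ F, S ⊆ W then 0 else 1) := fun m F =>
    Finset.sum_nonneg (fun W _ => mul_nonneg (mu_nonneg (hm0 m) (hm1 m) W)
      (by split_ifs <;> norm_num))
  have hf1 : ∀ m (F : Finset (Finset X)), ∑ W : Finset X,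
      mu (1 - (1 - p) ^ m) W * (if ∃ S ∈ F, S ⊆ W then 0 else 1) ≤ 1 := fun m F => by
    refine le_trans (Finset.sum_le_sum (fun W _ =>
      mul_le_of_le_one_right (mu_nonneg (hm0 m) (hm1 m) W) ?_)) (sum_mu (1 - (1 - p) ^ m)).le
    split_ifs <;> norm_num
  induction m with
  | zero =>
    intro F c hF hc
    rw [Finset.range_zero, Finset.sum_empty]
    rcases F.eq_empty_or_nonempty with h | ⟨S, hS⟩
    · have := hc ∅ (fun S hS => by rw [h] at hS; exact absurd hS (Finset.notMem_empty S))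
      rw [Finset.sum_empty] at this
      exact mul_nonpos_of_nonpos_of_nonneg this (hf0 0 F)
    · have h1 : S = ∅ := Finset.card_eq_zero.1 (by have := hF S hS; simpa using this)
      rw [Finset.sum_eq_zero, mul_zero]
      intro W _
      rw [if_pos ⟨S, hS, h1 ▸ Finset.empty_subset W⟩, mul_zero]
  | succ m ih =>
    intro F c hF hc
    by_cases hc0 : c ≤ 0
    · exact le_trans (mul_nonpos_of_nonpos_of_nonneg hc0 (hf0 _ F))
        (Finset.sum_nonneg (fun i _ => by positivity))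
    have hc1 : 0 ≤ c := (not_le.1 hc0).le
    rw [show 1 - (1 - p) ^ (m + 1) = p + (1 - (1 - p) ^ m) - p * (1 - (1 - p) ^ m) by ring,
      ← mu_union, Finset.sum_range_succ, Finset.mul_sum]
    have h1 : ∀ W1 : Finset X, c * (mu p W1 * ∑ W2 : Finset X, mu (1 - (1 - p) ^ m) W2 *
        (if ∃ S ∈ F, S ⊆ W1 ∪ W2 then 0 else 1)) ≤
        mu p W1 * ∑ i ∈ range m, (1 / 4 : ℝ) ^ (2 ^ i) +
          mu p W1 * ∑ T ∈ (frag F W1).filter (fun T => 2 ^ m ≤ T.card), q ^ T.card := by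
      intro W1
      rw [mul_left_comm, ← mul_add]
      refine mul_le_mul_of_nonneg_left ?_ (mu_nonneg hp0 hp1 W1)
      set G1 := (frag F W1).filter (fun T => 2 ^ m ≤ T.card) with hG1
      set F' := (frag F W1).filter (fun T => T.card < 2 ^ m) with hF'
      have h2 := ih F' (c - ∑ T ∈ G1, q ^ T.card) (fun S hS => (mem_filter.1 hS).2)
        (fun G hG => by
          have h3 := hc (G1 ∪ G) (fun S hS => by
            obtain ⟨T, h4, h5⟩ := exists_frag W1 hS
            by_cases h6 : 2 ^ m ≤ T.card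
            · exact ⟨T, mem_union_left _ (mem_filter.2 ⟨h4, h6⟩), h5⟩
            · obtain ⟨T', h7, h8⟩ := hG T (mem_filter.2 ⟨h4, not_le.1 h6⟩)
              exact ⟨T', mem_union_right _ h7, h8.trans h5⟩)
          have h4 := Finset.sum_union_inter (s₁ := G1) (s₂ := G) (f := fun T => q ^ T.card)
          have h5 : 0 ≤ ∑ T ∈ G1 ∩ G, q ^ T.card :=
            Finset.sum_nonneg (fun T _ => pow_nonneg hq _)
          linarith)
      have h3 : ∑ W2 : Finset X, mu (1 - (1 - p) ^ m) W2 *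
          (if ∃ S ∈ F, S ⊆ W1 ∪ W2 then 0 else 1) ≤ ∑ W2 : Finset X, mu (1 - (1 - p) ^ m) W2 *
          (if ∃ S ∈ F', S ⊆ W2 then 0 else 1) := by
        refine Finset.sum_le_sum (fun W2 _ =>
          mul_le_mul_of_nonneg_left ?_ (mu_nonneg (hm0 m) (hm1 m) W2))
        by_cases h4 : ∃ S ∈ F', S ⊆ W2
        · obtain ⟨T, h5, h6⟩ := h4
          obtain ⟨S, h7, rfl⟩ := (mem_frag.1 (mem_filter.1 h5).1).1
          rw [if_pos ⟨S, h7, fun x hx => by
            by_cases hw : x ∈ W1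
            · exact mem_union_left _ hw
            · exact mem_union_right _ (h6 (mem_sdiff.2 ⟨hx, hw⟩))⟩, if_pos ⟨_, h5, h6⟩]
        · rw [if_neg h4]
          split_ifs <;> norm_num
      have h4 : 0 ≤ ∑ T ∈ G1, q ^ T.card := Finset.sum_nonneg (fun T _ => pow_nonneg hq _)
      have h5 := hf1 m F'
      have h6 := mul_le_mul_of_nonneg_left h3 hc1
      nlinarith
    refine (Finset.sum_le_sum (fun W1 _ => h1 W1)).trans ?_
    rw [Finset.sum_add_distrib, ← Finset.sum_mul, sum_mu, one_mul]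
    linarith [frag_cost hF hq hpq hp1]

theorem park_pham {p q : ℝ} (hq : 0 ≤ q) (hpq : 16 * q ≤ p) (hp1 : p ≤ 1) (m : ℕ)
    (F : Finset (Finset X)) (hF : ∀ S ∈ F, S.card < 2 ^ m)
    (hc : ∀ G : Finset (Finset X), (∀ S ∈ F, ∃ T ∈ G, T ⊆ S) → 1 ≤ ∑ T ∈ G, q ^ T.card) :
    1 / 2 ≤ ∑ W : Finset X, mu (1 - (1 - p) ^ m) W * (if ∃ S ∈ F, S ⊆ W then 1 else 0) := by
  classical
  have h1 := pp_ind hq hpq hp1 m F 1 hF hc
  have h2 : ∑ i ∈ range m, (1 / 4 : ℝ) ^ (2 ^ i) ≤ ∑ i ∈ range m, (1 / 2 : ℝ) ^ i / 4 := by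
    refine Finset.sum_le_sum (fun i _ => ?_)
    rw [show (1 / 4 : ℝ) = (1 / 2) ^ 2 by norm_num, ← pow_mul,
      show (1 / 2 : ℝ) ^ i / 4 = (1 / 2) ^ (i + 2) by ring]
    refine pow_le_pow_of_le_one (by norm_num) (by norm_num) ?_
    have := Nat.lt_two_pow_self (n := i)
    omega
  have h3 : ∑ i ∈ range m, (1 / 2 : ℝ) ^ i ≤ 2 := by
    simpa using sum_geometric_two_le m
  rw [← Finset.sum_div] at h2
  have h4 : ∑ W : Finset X, mu (1 - (1 - p) ^ m) W * (if ∃ S ∈ F, S ⊆ W then 1 else 0) +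
      ∑ W : Finset X, mu (1 - (1 - p) ^ m) W * (if ∃ S ∈ F, S ⊆ W then 0 else 1) = 1 := by
    rw [← Finset.sum_add_distrib]
    refine Eq.trans (Finset.sum_congr rfl (fun W _ => ?_)) (sum_mu (1 - (1 - p) ^ m))
    split_ifs <;> ring
  linarith

end Vale.Agent.P064
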