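import Mathlib
import Vale.Agent.P064.Count
import Vale.Agent.P064.PP

/-!
The second Kahn-Kalai conjecture for an arbitrary finite group action.
-/

namespace Vale.Agent.P064

open Finset

set_option linter.unusedSectionVars false

variable {Γ X : Type} [Group Γ] [Fintype Γ] [DecidableEq Γ] [Fintype X] [DecidableEq X]

/-- the orbit of a set -/
def orb (ρ : Γ →* Equiv.Perm X) (A : Finset X) : Finset (Finset X) :=
  univ.image (fun γ => A.image (ρ γ))

variable {ρ : Γ →* Equiv.Perm X}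

lemma image_image_rho (A : Finset X) (γ δ : Γ) :
    (A.image (ρ γ)).image (ρ δ) = A.image (ρ (δ * γ)) := by
  rw [Finset.image_image, map_mul]
  rfl

lemma mem_orb {A B : Finset X} : B ∈ orb ρ A ↔ ∃ γ, A.image (ρ γ) = B := by
  simp [orb]

lemma image_one (A : Finset X) : A.image (ρ 1) = A := by
  rw [map_one]; simp

lemma fiber_card {A B : Finset X} (hB : B ∈ orb ρ A) :
    (univ.filter (fun γ => A.image (ρ γ) = B)).card * (orb ρ A).card = Fintype.card Γ := by
  have h1 : ∀ C ∈ orb ρ A, (univ.filter (fun γ => A.image (ρ γ) = C)).card =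
      (univ.filter (fun γ => A.image (ρ γ) = A)).card := by
    intro C hC
    obtain ⟨δ, rfl⟩ := mem_orb.1 hC
    refine Finset.card_bij (fun γ _ => δ⁻¹ * γ) (fun γ hγ => ?_) (fun a _ b _ h => ?_)
      (fun γ hγ => ⟨δ * γ, ?_, by simp⟩)
    · rw [mem_filter] at hγ ⊢
      refine ⟨mem_univ _, ?_⟩
      rw [← image_image_rho, hγ.2, image_image_rho, inv_mul_cancel, image_one]
    · exact mul_left_cancel h
    · rw [mem_filter] at hγ ⊢
      refine ⟨mem_univ _, ?_⟩
      rw [← image_image_rho, hγ.2]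
  rw [← Finset.card_univ, Finset.card_eq_sum_card_fiberwise (s := univ) (t := orb ρ A)
    (f := fun γ => A.image (ρ γ)) (fun γ _ => mem_coe.2 (mem_orb.2 ⟨γ, rfl⟩)),
    Finset.sum_congr rfl h1, h1 B hB, Finset.sum_const, smul_eq_mul, mul_comm]

lemma orb_eq {A B : Finset X} (hB : B ∈ orb ρ A) : orb ρ B = orb ρ A := by
  obtain ⟨δ, rfl⟩ := mem_orb.1 hB
  ext C
  simp only [mem_orb, image_image_rho]
  exact ⟨fun ⟨γ, h⟩ => ⟨_, h⟩, fun ⟨γ, h⟩ => ⟨γ * δ⁻¹, by simpa using h⟩⟩

lemma card_of_mem_orb {A B : Finset X} (hB : B ∈ orb ρ A) : B.card = A.card := by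
  obtain ⟨δ, rfl⟩ := mem_orb.1 hB
  exact Finset.card_image_of_injective _ (ρ δ).injective

theorem spread (H : Finset X) {q : ℝ} (hq : 0 < q)
    (hsp : ∀ R ⊆ H, R.Nonempty → 1 ≤ ((orb ρ R).card : ℝ) * q ^ R.card) (B : Finset X) :
    ((univ.filter (fun γ => B ⊆ H.image (ρ γ))).card : ℝ) ≤
      Fintype.card Γ * (2 * (KK * q) ^ B.card) := by
  classical
  set φ : Γ → {x // x ∈ H} → X := fun γ y => ρ γ y.1 with hφd
  have hφ : ∀ γ, Function.Injective (φ γ) := fun γ a b h => Subtype.ext ((ρ γ).injective h)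
  have himg : ∀ γ (R : Finset {x // x ∈ H}),
      R.image (φ γ) = (R.image Subtype.val).image (ρ γ) := by
    intro γ R
    rw [Finset.image_image]; rfl
  have hq' : ∀ (R : Finset {x // x ∈ H}) (C : Finset X),
      ((univ.filter (fun γ => R.image (φ γ) = C)).card : ℝ) ≤ Fintype.card Γ * q ^ C.card := by
    intro R C
    simp only [himg]
    set A := R.image Subtype.val with hA
    by_cases hC : C ∈ orb ρ A
    · have h1 := fiber_card hC
      rw [card_of_mem_orb hC]
      rcases A.eq_empty_or_nonempty with h | h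
      · rw [h, Finset.card_empty, pow_zero, mul_one]
        exact_mod_cast Finset.card_le_univ _
      · have h2 := hsp A (fun x hx => by
          obtain ⟨y, _, rfl⟩ := mem_image.1 hx
          exact y.2) h
        rw [← h1]
        push_cast
        rw [mul_assoc]
        exact le_mul_of_one_le_right (by positivity) h2
    · rw [Finset.filter_eq_empty_iff.2 (fun γ _ h => hC (mem_orb.2 ⟨γ, h⟩))]
      simp only [Finset.card_empty, Nat.cast_zero]
      positivity
  set CT : Finset (Finset {x // x ∈ H}) :=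
    univ.filter (fun R => R.image Subtype.val ∈ orb ρ B) with hCT
  have h1 := count_le hφ hq hq' CT (orb ρ B) B.card
    (fun R hR => by
      rw [← card_of_mem_orb (mem_filter.1 hR).2,
        Finset.card_image_of_injective _ Subtype.val_injective])
    (fun γ R hR => by
      rw [himg, ← orb_eq (mem_filter.1 hR).2]
      exact mem_orb.2 ⟨γ, rfl⟩)
  have h2 : univ.filter (fun γ => B ⊆ H.image (ρ γ)) ⊆
      CT.biUnion (fun R => univ.filter (fun γ => (R.image Subtype.val).image (ρ γ) = B)) := by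
    intro γ hγ
    have h3 := (mem_filter.1 hγ).2
    have h4 : ((univ.filter (fun y : {x // x ∈ H} => ρ γ y.1 ∈ B)).image Subtype.val).image
        (ρ γ) = B := by
      ext x
      simp only [mem_image, mem_filter, mem_univ, true_and]
      constructor
      · rintro ⟨_, ⟨y, hy, rfl⟩, rfl⟩
        exact hy
      · intro hx
        obtain ⟨y, hy, rfl⟩ := mem_image.1 (h3 hx)
        exact ⟨y, ⟨⟨y, hy⟩, hx, rfl⟩, rfl⟩
    refine mem_biUnion.2 ⟨_, mem_filter.2 ⟨mem_univ _, mem_orb.2 ⟨γ⁻¹, ?_⟩⟩,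
      mem_filter.2 ⟨mem_univ _, h4⟩⟩
    conv_lhs => rw [← h4]
    rw [image_image_rho, inv_mul_cancel, image_one]
  have h3 : (univ.filter (fun γ => B ⊆ H.image (ρ γ))).card * (orb ρ B).card ≤
      CT.card * Fintype.card Γ := by
    refine le_trans (Nat.mul_le_mul_right _ ((Finset.card_le_card h2).trans
      Finset.card_biUnion_le)) (le_of_eq ?_)
    rw [Finset.sum_mul, Finset.card_eq_sum_ones CT, Finset.sum_mul]
    refine Finset.sum_congr rfl (fun R hR => ?_)
    have h4 := orb_eq (mem_filter.1 hR).2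
    rw [one_mul, ← h4]
    exact fiber_card (by rw [h4]; exact mem_orb.2 ⟨1, image_one B⟩)
  have h4 : (0 : ℝ) < (orb ρ B).card := by
    exact_mod_cast Finset.card_pos.2 ⟨B, mem_orb.2 ⟨1, image_one B⟩⟩
  have h5 : ((univ.filter (fun γ => B ⊆ H.image (ρ γ))).card : ℝ) * (orb ρ B).card ≤
      CT.card * Fintype.card Γ := by exact_mod_cast h3
  refine le_of_mul_le_mul_right (h5.trans ?_) h4
  refine (mul_le_mul_of_nonneg_right h1 (by positivity)).trans (le_of_eq ?_)
  ring

theorem group_kk (H : Finset X) {q : ℝ} (hq : 0 < q)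
    (hsp : ∀ R ⊆ H, R.Nonempty → 1 ≤ ((orb ρ R).card : ℝ) * q ^ R.card) {m : ℕ}
    (hm : H.card < 2 ^ m) {p : ℝ} (hp : 16 * (2 * (KK * q)) ≤ p) (hp1 : p ≤ 1) :
    1 / 2 ≤ ∑ W : Finset X, mu (1 - (1 - p) ^ m) W * (if ∃ S ∈ orb ρ H, S ⊆ W then 1 else 0) := by
  classical
  have hK : 0 < KK * q := mul_pos KK_pos hq
  refine park_pham (by positivity) hp hp1 m (orb ρ H)
    (fun S hS => by rw [card_of_mem_orb hS]; exact hm) (fun G hG => ?_)
  by_cases h0 : ∅ ∈ G
  · refine le_trans (le_of_eq ?_) (Finset.single_le_sum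
      (f := fun T : Finset X => (2 * (KK * q)) ^ T.card) (fun T _ => by positivity) h0)
    simp
  have h1 : (univ : Finset Γ) ⊆ G.biUnion (fun B => univ.filter (fun γ => B ⊆ H.image (ρ γ))) := by
    intro γ _
    obtain ⟨B, h2, h3⟩ := hG _ (mem_orb.2 ⟨γ, rfl⟩)
    exact mem_biUnion.2 ⟨B, h2, mem_filter.2 ⟨mem_univ _, h3⟩⟩
  have h2 : (Fintype.card Γ : ℝ) ≤
      ∑ B ∈ G, ((univ.filter (fun γ => B ⊆ H.image (ρ γ))).card : ℝ) := by
    exact_mod_cast (Finset.card_le_card h1).trans Finset.card_biUnion_le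
  have h3 : (0 : ℝ) < Fintype.card Γ := by exact_mod_cast Fintype.card_pos
  refine le_of_mul_le_mul_left ?_ h3
  rw [mul_one, Finset.mul_sum]
  refine h2.trans (Finset.sum_le_sum (fun B hB => (spread H hq hsp B).trans ?_))
  refine mul_le_mul_of_nonneg_left ?_ h3.le
  rw [mul_pow (2 : ℝ)]
  refine mul_le_mul_of_nonneg_right ?_ (by positivity)
  have h4 : B.card ≠ 0 := fun h => h0 (Finset.card_eq_zero.1 h ▸ hB)
  exact le_self_pow₀ (by norm_num) h4

end Vale.Agent.P064
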