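import Mathlib
import Vale.Agent.P064.Defs
import Vale.Agent.P064.Group

/-!
The second Kahn-Kalai conjecture for graphs.
-/

namespace Vale.Agent.P064

open Finset MeasureTheory

/-- possible edges -/
abbrev Ed (n : ℕ) : Type := {e : Sym2 (Fin n) // ¬ e.IsDiag}

variable {n : ℕ}

def toG (W : Finset (Ed n)) : SimpleGraph (Fin n) :=
  SimpleGraph.fromEdgeSet (Subtype.val '' (W : Set (Ed n)))

lemma edgeSet_toG (W : Finset (Ed n)) :
    (toG W).edgeSet = Subtype.val '' (W : Set (Ed n)) := by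
  rw [toG, SimpleGraph.edgeSet_fromEdgeSet]
  ext e
  constructor
  · exact fun h => h.1
  · rintro ⟨e, he, rfl⟩
    exact ⟨⟨e, he, rfl⟩, e.2⟩

lemma mem_toG {W : Finset (Ed n)} {e : Ed n} : e.1 ∈ (toG W).edgeSet ↔ e ∈ W := by
  rw [edgeSet_toG]
  exact Subtype.val_injective.mem_set_image

lemma toG_bij : Function.Bijective (toG : Finset (Ed n) → SimpleGraph (Fin n)) := by
  classical
  constructor
  · intro W W' h
    ext e
    rw [← mem_toG, ← mem_toG, h]
  · intro G
    refine ⟨univ.filter (fun e => e.1 ∈ G.edgeSet), SimpleGraph.edgeSet_injective ?_⟩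
    rw [edgeSet_toG]
    ext e
    constructor
    · rintro ⟨e, he, rfl⟩
      exact (mem_filter.1 (mem_coe.1 he)).2
    · intro he
      exact ⟨⟨e, G.not_isDiag_of_mem_edgeSet he⟩, mem_coe.2 (mem_filter.2 ⟨mem_univ _, he⟩), rfl⟩

lemma msc : MeasurableSingletonClass (SimpleGraph (Fin n)) := by
  refine ⟨fun G => ?_⟩
  have : ({G} : Set (SimpleGraph (Fin n))) = SimpleGraph.edgeSet ⁻¹' {G.edgeSet} := by
    ext G'
    simp [SimpleGraph.edgeSet_injective.eq_iff]
  rw [this]
  exact SimpleGraph.measurable_edgeSet (measurableSet_singleton _)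

lemma integral_eq (p : unitInterval) (f : SimpleGraph (Fin n) → ℝ) :
    ∫ G, f G ∂(SimpleGraph.binomialRandom (Fin n) p) =
      ∑ W : Finset (Ed n), mu (p : ℝ) W * f (toG W) := by
  classical
  haveI := msc (n := n)
  rw [integral_fintype Integrable.of_finite]
  refine (Fintype.sum_bijective toG toG_bij _ _ (fun W => ?_)).symm
  rw [smul_eq_mul, measureReal_def, SimpleGraph.binomialRandom_singleton, mu_eq, edgeSet_toG,
    Set.ncard_image_of_injective _ Subtype.val_injective, Set.ncard_coe_finset,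
    Sym2.card_subtype_not_diag, Nat.card_eq_fintype_card]
  simp

lemma real_eq (p : unitInterval) (A : Set (SimpleGraph (Fin n))) [DecidablePred (· ∈ A)] :
    (SimpleGraph.binomialRandom (Fin n) p).real A =
      ∑ W : Finset (Ed n), mu (p : ℝ) W * if toG W ∈ A then 1 else 0 := by
  haveI := msc (n := n)
  rw [← integral_indicator_one (Set.toFinite A).measurableSet, integral_eq]
  refine Finset.sum_congr rfl (fun W _ => ?_)
  simp [Set.indicator_apply]

def rhoFun (π : Equiv.Perm (Fin n)) (e : Ed n) : Ed n :=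
  ⟨e.1.map π, fun h => e.2 ((Sym2.isDiag_map π.injective).1 h)⟩

def rho (n : ℕ) : Equiv.Perm (Fin n) →* Equiv.Perm (Ed n) where
  toFun π :=
    { toFun := rhoFun π
      invFun := rhoFun π⁻¹
      left_inv := fun e => Subtype.ext (by simp [rhoFun, Sym2.map_map])
      right_inv := fun e => Subtype.ext (by simp [rhoFun, Sym2.map_map]) }
  map_one' := Equiv.ext (fun e => Subtype.ext (by simp [rhoFun]))
  map_mul' π π' := Equiv.ext (fun e => Subtype.ext (by simp [rhoFun, Sym2.map_map]))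

lemma rho_val (π : Equiv.Perm (Fin n)) (e : Ed n) : (rho n π e).1 = e.1.map π := rfl

variable {V : Type}

open Classical in
noncomputable def edgesOf (H : SimpleGraph V) (ι : V → Fin n) : Finset (Ed n) :=
  univ.filter (fun e => ∃ a b, H.Adj a b ∧ e.1 = s(ι a, ι b))

lemma mem_edgesOf {H : SimpleGraph V} {ι : V → Fin n} {e : Ed n} :
    e ∈ edgesOf H ι ↔ ∃ a b, H.Adj a b ∧ e.1 = s(ι a, ι b) := by
  simp only [edgesOf, mem_filter, mem_univ, true_and]

lemma contained {H : SimpleGraph V} {ι : V → Fin n} (hι : Function.Injective ι)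
    {W : Finset (Ed n)} (h : ∃ S ∈ orb (rho n) (edgesOf H ι), S ⊆ W) :
    0 < (toG W).copyCount H := by
  obtain ⟨S, hS, hW⟩ := h
  obtain ⟨π, rfl⟩ := mem_orb.1 hS
  rw [SimpleGraph.copyCount_pos]
  refine ⟨⟨⟨fun a => π (ι a), fun {a b} hab => ?_⟩, π.injective.comp hι⟩⟩
  have h1 : ¬ (s(ι a, ι b)).IsDiag := fun h => hab.ne (hι (Sym2.mk_isDiag_iff.1 h))
  have h2 := mem_toG.2 (hW (mem_image_of_mem _
    (mem_edgesOf.2 ⟨a, b, hab, rfl⟩ : (⟨s(ι a, ι b), h1⟩ : Ed n) ∈ _)))
  rw [rho_val] at h2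
  exact h2

def subOf (H : SimpleGraph V) (ι : V → Fin n) (R : Finset (Ed n)) : H.Subgraph where
  verts := {a | ∃ b, H.Adj a b ∧ ∃ e ∈ R, e.1 = s(ι a, ι b)}
  Adj a b := H.Adj a b ∧ ∃ e ∈ R, e.1 = s(ι a, ι b)
  adj_sub h := h.1
  edge_vert h := ⟨_, h⟩
  symm := ⟨fun a b h => ⟨h.1.symm, by rw [Sym2.eq_swap]; exact h.2⟩⟩

lemma copyCount_le {H : SimpleGraph V} {ι : V → Fin n} (hι : Function.Injective ι)
    {R : Finset (Ed n)} (hR : R ⊆ edgesOf H ι) (W : Finset (Ed n)) :
    (toG W).copyCount (subOf H ι R).coe ≤ ((orb (rho n) R).filter (fun A => A ⊆ W)).card := by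
  classical
  unfold SimpleGraph.copyCount
  refine Finset.card_le_card_of_injOn
    (fun G' => univ.filter (fun e : Ed n => e.1 ∈ G'.edgeSet)) (fun G' hG' => ?_)
    (fun G1 h1 G2 h2 h => ?_)
  · obtain ⟨φ⟩ := (mem_filter.1 (mem_coe.1 hG')).2
    refine mem_coe.2 (mem_filter.2 ⟨?_, fun e he => mem_toG.1
      (G'.edgeSet_subset (mem_filter.1 he).2)⟩)
    let e0 : {x // x ∈ ι '' (subOf H ι R).verts} ≃ {x // x ∈ G'.verts} :=
      (Equiv.Set.image ι (subOf H ι R).verts hι).symm.trans φ.toEquiv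
    have hπ : ∀ a : (subOf H ι R).verts, e0.extendSubtype (ι a) = (φ a).1 := by
      intro a
      have h0 : ι a ∈ ι '' (subOf H ι R).verts := Set.mem_image_of_mem ι a.2
      rw [Equiv.extendSubtype_apply_of_mem e0 _ h0]
      have h1 : (Equiv.Set.image ι (subOf H ι R).verts hι).symm ⟨ι a, h0⟩ = a :=
        (Equiv.symm_apply_eq _).2 rfl
      exact congrArg (fun z => (φ z).1) h1
    refine mem_orb.2 ⟨e0.extendSubtype, ?_⟩
    ext e
    simp only [mem_image, mem_filter, mem_univ, true_and]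
    constructor
    · rintro ⟨r, hr, rfl⟩
      obtain ⟨a, b, hab, h⟩ := mem_edgesOf.1 (hR hr)
      have h1 : (subOf H ι R).Adj a b := ⟨hab, r, hr, h⟩
      have h2 : (subOf H ι R).coe.Adj ⟨a, h1.fst_mem⟩ ⟨b, h1.snd_mem⟩ := h1
      have h3 := φ.map_adj_iff.2 h2
      rw [rho_val, h, Sym2.map_mk, hπ ⟨a, h1.fst_mem⟩, hπ ⟨b, h1.snd_mem⟩]
      exact h3
    · obtain ⟨e, he0⟩ := e
      induction e using Sym2.ind with
      | _ u v =>
        intro he
        have h1 : G'.Adj u v := he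
        have h2 : G'.coe.Adj ⟨u, h1.fst_mem⟩ ⟨v, h1.snd_mem⟩ := h1
        have h3 := φ.symm.map_adj_iff.2 h2
        obtain ⟨-, r, hr, h4⟩ := h3
        refine ⟨r, hr, Subtype.ext ?_⟩
        rw [rho_val, h4, Sym2.map_mk, hπ, hπ]
        simp
  · have key : ∀ G' : (toG W).Subgraph, Nonempty ((subOf H ι R).coe ≃g G'.coe) →
        ∀ u, u ∈ G'.verts ↔ ∃ v, G'.Adj u v := by
      rintro G' ⟨φ⟩ u
      refine ⟨fun hu => ?_, fun ⟨v, h⟩ => h.fst_mem⟩
      obtain ⟨b, hb⟩ := (φ.symm ⟨u, hu⟩).2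
      have h3 : (subOf H ι R).Adj (φ.symm ⟨u, hu⟩).1 b := hb
      have h4 : (subOf H ι R).coe.Adj (φ.symm ⟨u, hu⟩) ⟨b, h3.snd_mem⟩ := h3
      have h5 := φ.map_adj_iff.2 h4
      rw [RelIso.apply_symm_apply] at h5
      exact ⟨_, h5⟩
    have hadj : ∀ u v, G1.Adj u v ↔ G2.Adj u v := by
      intro u v
      by_cases huv : u = v
      · subst huv
        exact ⟨fun h => absurd rfl h.ne, fun h => absurd rfl h.ne⟩
      · have := Finset.ext_iff.1 h ⟨s(u, v), fun h => huv (Sym2.mk_isDiag_iff.1 h)⟩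
        simpa using this
    refine SimpleGraph.Subgraph.ext ?_ (funext fun u => funext fun v => propext (hadj u v))
    ext u
    rw [key G1 (mem_filter.1 (mem_coe.1 h1)).2, key G2 (mem_filter.1 (mem_coe.1 h2)).2]
    simp only [hadj]

lemma sparse {H : SimpleGraph V} {ι : V → Fin n} (hι : Function.Injective ι) (p : unitInterval)
    (hp : ∀ F : H.Subgraph,
      1 / 2 ≤ ∫ G, (G.copyCount F.coe : ℝ) ∂(SimpleGraph.binomialRandom (Fin n) p))
    {R : Finset (Ed n)} (hR : R ⊆ edgesOf H ι) :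
    1 / 2 ≤ ((orb (rho n) R).card : ℝ) * (p : ℝ) ^ R.card := by
  classical
  refine (hp (subOf H ι R)).trans ?_
  rw [integral_eq]
  calc _ ≤ ∑ W : Finset (Ed n), ∑ A ∈ orb (rho n) R, mu (p : ℝ) W * (if A ⊆ W then 1 else 0) := by
        refine Finset.sum_le_sum (fun W _ => ?_)
        rw [← Finset.mul_sum, ← Finset.sum_filter, Finset.sum_const, nsmul_eq_mul, mul_one]
        refine mul_le_mul_of_nonneg_left ?_ (mu_nonneg p.2.1 p.2.2 W)
        exact_mod_cast copyCount_le hι hR W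
    _ = _ := by
        rw [Finset.sum_comm, Finset.sum_congr rfl (g := fun _ => (p : ℝ) ^ R.card)
          (fun A hA => by rw [sum_mu_sup, card_of_mem_orb hA]), Finset.sum_const, nsmul_eq_mul]

lemma pc_le_one (H : SimpleGraph V) : pc n H ≤ 1 := by
  unfold pc
  set A := {p : ℝ | ∃ hp : p ∈ unitInterval,
    1 / 2 ≤ (SimpleGraph.binomialRandom (Fin n) ⟨p, hp⟩).real {G | 0 < G.copyCount H}} with hA
  rcases A.eq_empty_or_nonempty with h | ⟨p, hp⟩
  · rw [h, Real.sInf_empty]; norm_num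
  · exact (csInf_le ⟨0, fun x hx => hx.1.1⟩ hp).trans hp.1.2

lemma pc_le {H : SimpleGraph V} {ι : V → Fin n} (hι : Function.Injective ι) (hn : 2 ≤ n)
    (hH : H.edgeSet.Nonempty) (p : unitInterval)
    (hp : ∀ F : H.Subgraph,
      1 / 2 ≤ ∫ G, (G.copyCount F.coe : ℝ) ∂(SimpleGraph.binomialRandom (Fin n) p)) :
    pc n H ≤ (384 * KK * Real.log n) * p := by
  classical
  have hK := KK_pos
  have hp0 : 0 < (p : ℝ) := by
    obtain ⟨e, he⟩ := hH
    induction e using Sym2.ind with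
    | _ a b =>
      have hab : H.Adj a b := he
      have h1 : ¬ (s(ι a, ι b)).IsDiag := fun h => hab.ne (hι (Sym2.mk_isDiag_iff.1 h))
      have h2 := sparse hι p hp (R := {⟨s(ι a, ι b), h1⟩})
        (Finset.singleton_subset_iff.2 (mem_edgesOf.2 ⟨a, b, hab, rfl⟩))
      rw [Finset.card_singleton, pow_one] at h2
      rcases p.2.1.eq_or_lt with h | h
      · rw [← h, mul_zero] at h2; norm_num at h2
      · exact h
  set m := 2 * (Nat.log 2 n + 1) with hm
  have hlog : Real.log 2 ≤ Real.log n :=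
    Real.log_le_log (by norm_num) (by exact_mod_cast hn)
  have hl2 := Real.log_two_gt_d9
  have hm1 : (m : ℝ) ≤ 6 * Real.log n := by
    have h1 : 2 ^ Nat.log 2 n ≤ n := Nat.pow_log_le_self 2 (by omega)
    have h2 : (Nat.log 2 n : ℝ) * Real.log 2 ≤ Real.log n := by
      rw [← Real.log_pow]
      exact Real.log_le_log (by positivity) (by exact_mod_cast h1)
    have h3 : (0 : ℝ) ≤ Nat.log 2 n := by positivity
    rw [hm]
    push_cast
    nlinarith
  have hm2 : (edgesOf H ι).card < 2 ^ m := by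
    have h1 : n < 2 ^ (Nat.log 2 n + 1) := Nat.lt_pow_succ_log_self (by norm_num) n
    have h2 : (edgesOf H ι).card ≤ n.choose 2 := by
      refine (Finset.card_le_univ _).trans (le_of_eq ?_)
      rw [Sym2.card_subtype_not_diag, Fintype.card_fin]
    have h3 : n.choose 2 ≤ n ^ 2 := Nat.choose_le_pow n 2
    have h4 : n ^ 2 < (2 ^ (Nat.log 2 n + 1)) ^ 2 := Nat.pow_lt_pow_left h1 (by norm_num)
    rw [← pow_mul, mul_comm] at h4
    exact lt_of_le_of_lt (h2.trans h3) h4
  set r : ℝ := 16 * (2 * (KK * (2 * p))) with hr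
  have hr0 : 0 < r := by positivity
  have hrm : (m : ℝ) * r ≤ (384 * KK * Real.log n) * p := by
    calc (m : ℝ) * r ≤ 6 * Real.log n * r := mul_le_mul_of_nonneg_right hm1 hr0.le
      _ = _ := by rw [hr]; ring
  refine le_trans ?_ hrm
  by_cases hr1 : r ≤ 1
  · have h1 := group_kk (ρ := rho n) (edgesOf H ι) (q := 2 * p) (by positivity)
      (fun R hR hne => by
        have h2 := sparse hι p hp hR
        have h3 : (2 : ℝ) ≤ 2 ^ R.card := le_self_pow₀ (by norm_num) (card_pos.2 hne).ne'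
        have h4 : (0 : ℝ) ≤ ((orb (rho n) R).card : ℝ) * (p : ℝ) ^ R.card := by positivity
        rw [mul_pow]
        nlinarith) hm2 (p := r) le_rfl hr1
    have h2 : (1 - r) ^ m ≤ 1 := pow_le_one₀ (by linarith) (by linarith)
    have h3 : 0 ≤ (1 - r) ^ m := pow_nonneg (by linarith) m
    have h4 : 1 - (1 - r) ^ m ∈ unitInterval := ⟨by linarith, by linarith⟩
    have h5 : 1 - (1 - r) ^ m ≤ m * r := by
      have := one_add_mul_le_pow (a := -r) (by linarith) m
      rw [← sub_eq_add_neg] at this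
      linarith
    refine le_trans (csInf_le ⟨0, fun x hx => hx.1.1⟩ ⟨h4, h1.trans ?_⟩) h5
    rw [real_eq]
    refine Finset.sum_le_sum (fun W _ => mul_le_mul_of_nonneg_left ?_ (mu_nonneg h4.1 h4.2 W))
    split_ifs with h6 h7
    · exact le_rfl
    · exact absurd (contained hι h6) h7
    · norm_num
    · exact le_rfl
  · refine (pc_le_one H).trans ?_
    have : (1 : ℝ) ≤ m := by
      have : 1 ≤ m := by omega
      exact_mod_cast this
    nlinarith [not_le.1 hr1]

theorem second_kk (hn : 2 ≤ n) [Fintype V] (H : SimpleGraph V) (hH : H.edgeSet.Nonempty)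
    (hV : Fintype.card V ≤ n) : pc n H ≤ 384 * KK * pE n H * Real.log n := by
  obtain ⟨ι⟩ : Nonempty (V ↪ Fin n) :=
    Function.Embedding.nonempty_of_card_le (by rwa [Fintype.card_fin])
  have hlog : 0 < Real.log n := Real.log_pos (by exact_mod_cast hn)
  have hC : 0 < 384 * KK * Real.log n := by have := KK_pos; positivity
  have h1 : pc n H / (384 * KK * Real.log n) ≤ pE n H := by
    refine le_csInf ⟨1, ⟨zero_le_one, le_rfl⟩, fun F => ?_⟩ ?_
    · haveI := msc (n := n)
      have h2 : (⟨1, ⟨zero_le_one, le_rfl⟩⟩ : unitInterval) = 1 := rfl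
      rw [h2, SimpleGraph.binomialRandom_one, integral_dirac]
      have h3 : 0 < (⊤ : SimpleGraph (Fin n)).copyCount F.coe := by
        rw [SimpleGraph.copyCount_pos]
        exact SimpleGraph.isContained_top_iff.2
          ⟨(Function.Embedding.subtype _).trans ι⟩
      have h4 : (1 : ℝ) ≤ (⊤ : SimpleGraph (Fin n)).copyCount F.coe := by exact_mod_cast h3
      linarith
    · rintro p ⟨hp, h⟩
      rw [div_le_iff₀' hC]
      exact pc_le ι.injective hn hH ⟨p, hp⟩ h
  rw [div_le_iff₀ hC] at h1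
  refine h1.trans (le_of_eq ?_)
  ring

end Vale.Agent.P064
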